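import Vale.Agent.P091.T.H284.AccD

/-!
# P091, row E1-F: the rounding error is below the bias of every stage
-/

namespace Vale.Agent.P091.T.H284

open Real Finset Filter Topology

theorem pow_bb_ge {D : ℝ} (h : 1 ≤ D) : D ^ 4 ≤ (2 : ℝ) ^ (T.bb D) := by
  have hD : 0 < D := by linarith
  have h1 : (2 : ℝ) ^ (4 * Real.logb 2 D) = D ^ 4 := by
    rw [mul_comm (4 : ℝ), Real.rpow_mul (by norm_num),
      Real.rpow_logb (by norm_num) (by norm_num) hD]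
    norm_num
  rw [← h1, ← Real.rpow_natCast]
  exact Real.rpow_le_rpow_of_exponent_le (by norm_num) (Nat.le_ceil _)

/-- `C / 2^b ≤ (1/2)^t` for every stage -/
theorem err_num' (A C1 C : ℝ) (hA : 1 ≤ A) (hC1 : 0 ≤ C1) :
    ∃ D0 : ℝ, ∀ D : ℝ, D0 ≤ D → ∀ t : ℕ, t ≤ T.sm A C1 D →
      C / 2 ^ (T.bb D) ≤ (1 / 2) ^ t := by
  refine eventually_atTop.1 ?_
  filter_upwards [eventually_ge_atTop (1:ℝ), lD_tendsto.eventually_ge_atTop A,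
    ev_l_log_pow 4 0 (4 * |C| * (C1 + 1) ^ 4) 1 one_pos] with D hD hlA h1 t ht
  have hD0 : 0 < D := by linarith
  have hb := pow_bb_ge hD
  have hD4 : 0 < D ^ 4 := by positivity
  have e1 : (2:ℝ) ^ t ≤ 4 * ((C1 + 1) * T.ll D) ^ 4 :=
    (pow_le_pow_right₀ (by norm_num) ht).trans (two_pow_sm hA hC1 hlA)
  have e2 : |C| * 2 ^ t ≤ 2 ^ (T.bb D) := by
    calc |C| * 2 ^ t ≤ |C| * (4 * ((C1 + 1) * T.ll D) ^ 4) := by gcongr
      _ = 4 * |C| * (C1 + 1) ^ 4 * ((T.ll D : ℝ) ^ 4 * Real.log D ^ 0) := by ring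
      _ ≤ D ^ (1:ℝ) := h1
      _ = D ^ 1 := by rw [Real.rpow_one, pow_one]
      _ ≤ D ^ 4 := pow_le_pow_right₀ hD (by norm_num)
      _ ≤ _ := hb
  have e3 : (1 / 2 : ℝ) ^ t = ((2:ℝ) ^ t)⁻¹ := by rw [one_div, inv_pow]
  rw [e3, div_le_iff₀ (by positivity), inv_mul_eq_div, le_div_iff₀ (by positivity)]
  calc C * 2 ^ t ≤ |C| * 2 ^ t := by
        gcongr
        exact le_abs_self C
    _ ≤ _ := e2

/-- **the last number of the stage**: `4 π / 2^b ≤ (1/2)^t` -/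
theorem err_num (A C1 : ℝ) (hA : 1 ≤ A) (hC1 : 0 ≤ C1) :
    ∃ D0 : ℝ, ∀ D : ℝ, D0 ≤ D → ∀ t : ℕ, t ≤ T.sm A C1 D →
      4 * Real.pi / 2 ^ (T.bb D) ≤ (1 / 2) ^ t :=
  err_num' A C1 (4 * Real.pi) hA hC1

end Vale.Agent.P091.T.H284
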