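import Vale.Agent.P091.T.H284.StageDep

/-!
# P091, row E1-F: the numbers of one stage of `P_STAGEC`, ready to use
-/

namespace Vale.Agent.P091.T.H284

open Real Finset Filter Topology

/-- **numbers of stage `t` for `H103.inst`** (`C0` = the constant of `inst`, `c0` = bound of the
error mass) -/
theorem stage_num (A C1 C0 c c0 : ℝ) (hA : 1 ≤ A) (hC1 : 0 ≤ C1) (hC0 : 0 ≤ C0) (hc : 0 < c) :
    ∃ C : ℝ, 0 ≤ C ∧ ∃ D0 : ℝ, ∀ D : ℝ, D0 ≤ D → ∀ t : ℕ, t < T.sm A C1 D →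
      ∀ (I m er δ h N : ℝ) (L : ℕ), L ≤ qm D → 0 ≤ I → I ≤ 4 + L * |ep c D * D| →
      0 ≤ m → m ≤ 1 → 0 ≤ er → er ≤ c0 → 0 ≤ δ → δ ≤ (1 / 2) ^ t → 0 ≤ h →
      h ≤ 5 * T.th A D (t + 1) + 4 → 0 ≤ N → N ≤ D / (4 * (T.ll D : ℝ) ^ 20) →
      C0 * (δ * h + √((1 + m + h + I) * (1 + m + I + √(I * h))) + √(h * (1 + m + er + N))
        + er + m) ≤ C * ((1 / 2) ^ (t + 1) * T.th A D (t + 1) + D / (T.ll D : ℝ) ^ 3) := by
  obtain ⟨C, hC, hev⟩ := one_stage_inst A C1 (5 + |c0|) hA hC1 (by have := abs_nonneg c0; linarith)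
  refine ⟨C0 * C, by positivity, ?_⟩
  have hE : ∀ᶠ D : ℝ in atTop, ∀ t : ℕ, t < T.sm A C1 D →
      ∀ (I m er δ h N : ℝ) (L : ℕ), L ≤ qm D → 0 ≤ I → I ≤ 4 + L * |ep c D * D| →
      0 ≤ m → m ≤ 1 → 0 ≤ er → er ≤ c0 → 0 ≤ δ → δ ≤ (1 / 2) ^ t → 0 ≤ h →
      h ≤ 5 * T.th A D (t + 1) + 4 → 0 ≤ N → N ≤ D / (4 * (T.ll D : ℝ) ^ 20) →
      C0 * (δ * h + √((1 + m + h + I) * (1 + m + I + √(I * h))) + √(h * (1 + m + er + N))
        + er + m) ≤ C0 * C * ((1 / 2) ^ (t + 1) * T.th A D (t + 1)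
          + D / (T.ll D : ℝ) ^ 3) := by
    filter_upwards [hev, eventually_ge_atTop (1:ℝ), lD_tendsto.eventually_ge_atTop A,
      ev_I24 (5 + |c0|) c (by have := abs_nonneg c0; linarith) hc]
      with D hev hD hlA hI24 t ht I m er δ h N L hL I0 I1 m0 m1 r0 r1 d0 d1 p0 p1 N0 N1
    have hc0 := abs_nonneg c0
    have hc1 := le_abs_self c0
    have hD0 : 0 < D := by linarith
    have hl1 : 1 ≤ (T.ll D : ℝ) := by linarith
    have hl0 : 0 < (T.ll D : ℝ) := by linarith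
    have ht0 := th_nonneg' (by linarith : 0 ≤ A) hD0.le (t + 1)
    have hq : 0 ≤ (L:ℝ) * |ep c D * D| := by positivity
    have i1 : I ≤ (5 + |c0|) * (1 + L * |ep c D * D|) := by nlinarith
    have i2 := hI24 I L hL i1
    have i3 : D / (T.ll D : ℝ) ^ 24 ≤ D / (T.ll D : ℝ) ^ 12 :=
      div_pow_le hD0.le hl1 (by norm_num)
    have i4 : I ≤ (5 + |c0|) * (1 + D / (T.ll D : ℝ) ^ 12) := i2.trans (by gcongr)
    have n1 : N ≤ (5 + |c0|) * (D / (T.ll D : ℝ) ^ 8) := by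
      have e1 : D / (4 * (T.ll D : ℝ) ^ 20) ≤ D / (T.ll D : ℝ) ^ 20 := by
        apply div_le_div_of_nonneg_left hD0.le (by positivity)
        have : 0 < (T.ll D : ℝ) ^ 20 := by positivity
        linarith
      have e2 : D / (T.ll D : ℝ) ^ 20 ≤ D / (T.ll D : ℝ) ^ 8 :=
        div_pow_le hD0.le hl1 (by norm_num)
      have e3 : 0 ≤ D / (T.ll D : ℝ) ^ 8 := by positivity
      nlinarith
    have d2 : δ ≤ (5 + |c0|) * (1 / 2) ^ (t + 1) := by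
      have e1 : (0:ℝ) ≤ (1 / 2) ^ t := by positivity
      have e2 : (1 / 2 : ℝ) ^ (t + 1) = (1 / 2) ^ t / 2 := by rw [pow_succ]; ring
      rw [e2]
      nlinarith
    have h2 : h ≤ (5 + |c0|) * (T.th A D (t + 1) + 1) := by nlinarith
    have key := hev (t + 1) ht I m er δ h N I0 i4 m0 (by linarith) r0 (by linarith) d0 d2 p0 h2
      N0 n1
    calc _ ≤ C0 * (C * ((1 / 2) ^ (t + 1) * T.th A D (t + 1) + D / (T.ll D : ℝ) ^ 3)) :=
          mul_le_mul_of_nonneg_left key hC0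
      _ = _ := by ring
  exact eventually_atTop.1 hE

/-- **the same for `lemmaE_dep`** (`C0` = its constant, bad energy `b ≤ c1 (1 + D / l^20)`) -/
theorem stage_num_dep (A C1 C0 c c1 : ℝ) (hA : 1 ≤ A) (hC1 : 0 ≤ C1) (hC0 : 0 ≤ C0) (hc : 0 < c) :
    ∃ C : ℝ, 0 ≤ C ∧ ∃ D0 : ℝ, ∀ D : ℝ, D0 ≤ D → ∀ t : ℕ, t < T.sm A C1 D →
      ∀ (I m δ h b : ℝ) (L : ℕ), L ≤ qm D → 0 ≤ I → I ≤ 4 + L * |ep c D * D| →
      0 ≤ m → m ≤ 1 → 0 ≤ δ → δ ≤ c1 * (1 / 2) ^ t → 0 ≤ h →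
      h ≤ 5 * T.th A D (t + 1) + 4 → 0 ≤ b → b ≤ c1 * (1 + D / (T.ll D : ℝ) ^ 20) →
      C0 * (δ * h + √((1 + m + h + I) * (1 + m + I + √(I * h)))
        + √h * √(1 + m + √(h * b) + √((1 + m + h + I) * (1 + m + I + √(I * h)))
            + (1 + m + I + √(I * h))) + I + m + 1)
        ≤ C * ((1 / 2) ^ (t + 1) * T.th A D (t + 1) + D / (T.ll D : ℝ) ^ 3) := by
  set K : ℝ := 5 + 2 * |c1| with hK
  have hK1 : 1 ≤ K := by have := abs_nonneg c1; linarith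
  obtain ⟨C, hC, hev⟩ := one_stage_dep A C1 K hA hC1 hK1
  refine ⟨C0 * C, by positivity, ?_⟩
  have hE : ∀ᶠ D : ℝ in atTop, ∀ t : ℕ, t < T.sm A C1 D →
      ∀ (I m δ h b : ℝ) (L : ℕ), L ≤ qm D → 0 ≤ I → I ≤ 4 + L * |ep c D * D| →
      0 ≤ m → m ≤ 1 → 0 ≤ δ → δ ≤ c1 * (1 / 2) ^ t → 0 ≤ h →
      h ≤ 5 * T.th A D (t + 1) + 4 → 0 ≤ b → b ≤ c1 * (1 + D / (T.ll D : ℝ) ^ 20) →
      C0 * (δ * h + √((1 + m + h + I) * (1 + m + I + √(I * h)))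
        + √h * √(1 + m + √(h * b) + √((1 + m + h + I) * (1 + m + I + √(I * h)))
            + (1 + m + I + √(I * h))) + I + m + 1)
        ≤ C0 * C * ((1 / 2) ^ (t + 1) * T.th A D (t + 1) + D / (T.ll D : ℝ) ^ 3) := by
    filter_upwards [hev, eventually_ge_atTop (1:ℝ), lD_tendsto.eventually_ge_atTop A,
      ev_I24 K c (by linarith) hc, ev_b12 K hK1]
      with D hev hD hlA hI24 hb12 t ht I m δ h b L hL I0 I1 m0 m1 d0 d1 p0 p1 b0 b1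
    have hc0 := abs_nonneg c1
    have hc1' := le_abs_self c1
    have hD0 : 0 < D := by linarith
    have hl0 : 0 < (T.ll D : ℝ) := by linarith
    have ht0 := th_nonneg' (by linarith : 0 ≤ A) hD0.le (t + 1)
    have hq : 0 ≤ (L:ℝ) * |ep c D * D| := by positivity
    have i1 : I ≤ K * (1 + L * |ep c D * D|) := by nlinarith
    have i2 := hI24 I L hL i1
    have b2 : b ≤ K * (1 + D / (T.ll D : ℝ) ^ 20) := by
      have : 0 ≤ 1 + D / (T.ll D : ℝ) ^ 20 := by positivity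
      calc b ≤ c1 * (1 + D / (T.ll D : ℝ) ^ 20) := b1
        _ ≤ K * (1 + D / (T.ll D : ℝ) ^ 20) := by gcongr; linarith
    have b3 := hb12 b 1 hK1 b2
    have d2 : δ ≤ K * (1 / 2) ^ (t + 1) := by
      have e1 : (0:ℝ) ≤ (1 / 2) ^ t := by positivity
      have e2 : (1 / 2 : ℝ) ^ (t + 1) = (1 / 2) ^ t / 2 := by rw [pow_succ]; ring
      have e3 : c1 * (1 / 2) ^ t ≤ |c1| * (1 / 2) ^ t := by gcongr
      rw [e2]
      nlinarith
    have h2 : h ≤ K * (T.th A D (t + 1) + 1) := by nlinarith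
    have key := hev (t + 1) ht I m δ h b I0 i2 m0 (by linarith) d0 d2 p0 h2 b0 b3
    calc _ ≤ C0 * (C * ((1 / 2) ^ (t + 1) * T.th A D (t + 1) + D / (T.ll D : ℝ) ^ 3)) :=
          mul_le_mul_of_nonneg_left key hC0
      _ = _ := by ring
  exact eventually_atTop.1 hE

/-- **the threshold of `t8_rel`**: `C ε / δ ≤ exp (-(D / l^2))` with `ε = 2 exp (-th_t / 2)`,
`δ = (1/2)^t`, for every stage `t ≤ sm` -/
theorem thr_num (A C1 C : ℝ) (hA : 1 ≤ A) (hC1 : 0 ≤ C1) :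
    ∃ D0 : ℝ, ∀ D : ℝ, D0 ≤ D → ∀ t : ℕ, t ≤ T.sm A C1 D →
      C * (2 * Real.exp (-(T.th A D t / 2))) / (1 / 2) ^ t
        ≤ Real.exp (-(D / (T.ll D : ℝ) ^ 2)) := by
  refine eventually_atTop.1 ?_
  filter_upwards [ev_mass A C1 (2 * C) hA hC1 1] with D h t ht
  refine le_of_eq_of_le ?_ (h t ht)
  have e : (1 / 2 : ℝ) ^ t = ((2:ℝ) ^ t)⁻¹ := by rw [one_div, inv_pow]
  rw [e, div_inv_eq_mul]
  ring

end Vale.Agent.P091.T.H284
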