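import Vale.Agent.P091.T.H284.AccD

/-!
# P091, row E1-F: one stage and the sum over the stages, in the letters of `P_STAGE`
-/

namespace Vale.Agent.P091.T.H284

open Real Finset Filter Topology

/-- **One stage**: the right side of Lemma E is at most `C (2^(-s) th_s + D / l^3)`. -/
theorem one_stage (A C1 K : ℝ) (hA : 1 ≤ A) (hC1 : 0 ≤ C1) (hK : 1 ≤ K) :
    ∃ C : ℝ, 0 ≤ C ∧ ∀ᶠ D : ℝ in atTop, ∀ s : ℕ, s ≤ T.sm A C1 D → ∀ I m δ h b : ℝ,
      0 ≤ I → I ≤ K * (1 + D / (T.ll D : ℝ) ^ 12) → 0 ≤ m → m ≤ K →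
      0 ≤ δ → δ ≤ K * (1 / 2) ^ s → 0 ≤ h → h ≤ K * (T.th A D s + 1) →
      b ≤ K * (δ ^ 2 * h + D / (T.ll D : ℝ) ^ 8) →
      cost δ h m I b ≤ C * ((1 / 2) ^ s * T.th A D s + D / (T.ll D : ℝ) ^ 3) := by
  set K1 : ℝ := K * (2 * (C1 + 1) + 1) with hK1
  set K2 : ℝ := √(2 * (1 + 3 * K + K1) * (1 + 3 * K + √(2 * K * K1))) + √(K1 * K) with hK2
  refine ⟨2 * ((1 + √K) * (K * K)) + K2, by positivity, ?_⟩
  filter_upwards [eventually_ge_atTop (1:ℝ), lD_tendsto.eventually_ge_atTop A,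
    ev_l_log_pow 6 0 1 (1 / 2) (by norm_num), ev_poly 0 3 1]
    with D hD hlA hl6 hD3 s s2 I m δ h b I0 I1 m0 m1 d0 d1 p0 p1 hb
  set l : ℝ := (T.ll D : ℝ) with hldef
  have hD0 : 0 < D := by linarith
  have hl1 : 1 ≤ l := by linarith
  have hl0 : 0 < l := by linarith
  have hA0 : 0 < A := by linarith
  have hlD6 : l ^ 6 ≤ √D := by rw [Real.sqrt_eq_rpow]; simpa using hl6
  have ht := th_nonneg' hA0.le hD0.le s
  have hk : h ≤ K1 * D := by
    calc h ≤ K * (T.th A D s + 1) := p1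
      _ ≤ K * (2 * (C1 + 1) * D + 1 * D) := by
        have := th_le hA0 hC1 hD0.le hlA s2
        gcongr
        linarith
      _ = K1 * D := by rw [hK1]; ring
  have e1 := cost_split (I := I) (m := m) d0 p0 (by linarith : 0 ≤ K) (by positivity) hb
  have e2 := cost_rest (D := D) (l := l) (b := K * (D / l ^ 8)) (by linarith) hl1 hlD6 hK
    (by positivity : 0 ≤ K1) p0 hk m0 m1 I0 I1 le_rfl
  have e3 : cost δ h m I b ≤ (1 + √K) * (δ * h) + K2 * (D / l ^ 3) := by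
    unfold cost at e1 ⊢
    linarith
  have e4 : δ * h ≤ K * K * ((1 / 2) ^ s * T.th A D s + D / l ^ 3) := by
    have hp : (1 / 2 : ℝ) ^ s ≤ 1 := pow_le_one₀ (by norm_num) (by norm_num)
    calc δ * h ≤ (K * (1 / 2) ^ s) * (K * (T.th A D s + 1)) := by gcongr
      _ = K * K * ((1 / 2) ^ s * T.th A D s + (1 / 2) ^ s) := by ring
      _ ≤ K * K * ((1 / 2) ^ s * T.th A D s + D / l ^ 3) := by
        have : (1:ℝ) ≤ D / l ^ 3 := by simpa using hD3
        gcongr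
        linarith
  have e5 : 0 ≤ (1 / 2 : ℝ) ^ s * T.th A D s := by positivity
  have e6 : 0 ≤ D / l ^ 3 := by positivity
  have hK20 : 0 ≤ K2 := by positivity
  calc cost δ h m I b ≤ (1 + √K) * (δ * h) + K2 * (D / l ^ 3) := e3
    _ ≤ (1 + √K) * (K * K * ((1 / 2) ^ s * T.th A D s + D / l ^ 3))
        + K2 * ((1 / 2) ^ s * T.th A D s + D / l ^ 3) := by
      gcongr
      linarith
    _ ≤ _ := by
      have : 0 ≤ (1 + √K) * (K * K) * ((1 / 2) ^ s * T.th A D s + D / l ^ 3) := by positivity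
      nlinarith

/-- the bad energy in the shape in which it is produced: cuts `l^10 / s0`, spoiled classes
`1 / δ ≤ 2^s`, weights `N` -/
theorem ev_b (A C1 K s0 : ℝ) (hA : 1 ≤ A) (hC1 : 0 ≤ C1) (hK : 1 ≤ K) (_hs : 0 < s0) :
    ∀ᶠ D : ℝ in atTop, ∀ s : ℕ, s ≤ T.sm A C1 D → ∀ m δ h b N : ℝ, m ≤ K →
      0 ≤ h → N ≤ D / (T.ll D : ℝ) ^ 9 →
      b ≤ K * (1 + m + δ ^ 2 * h + (T.ll D : ℝ) ^ 10 / s0 + K * (2:ℝ) ^ s + N) →
      b ≤ K * (δ ^ 2 * h + D / (T.ll D : ℝ) ^ 8) := by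
  filter_upwards [eventually_ge_atTop (1:ℝ), lD_tendsto.eventually_ge_atTop A,
    lD_tendsto.eventually_ge_atTop 4,
    ev_poly 0 8 (4 * (1 + K)), ev_poly 10 8 (4 / s0), ev_poly 4 8 (16 * K * (C1 + 1) ^ 4)]
    with D hD hlA hl4 h1 h2 h3 s hsm m δ h b N hm hh hN hb
  set l : ℝ := (T.ll D : ℝ) with hldef
  have hl0 : 0 < l := by linarith
  have e1 : (2:ℝ) ^ s ≤ 4 * ((C1 + 1) * l) ^ 4 :=
    (pow_le_pow_right₀ (by norm_num) hsm).trans (two_pow_sm hA hC1 hlA)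
  have e2 : D / l ^ 9 ≤ D / l ^ 8 / 4 := by
    rw [div_div]
    apply div_le_div_of_nonneg_left (by linarith) (by positivity)
    nlinarith [pow_pos hl0 8]
  have e3 : K * (2:ℝ) ^ s ≤ D / l ^ 8 / 4 := by
    calc K * (2:ℝ) ^ s ≤ K * (4 * ((C1 + 1) * l) ^ 4) := by gcongr
      _ = (16 * K * (C1 + 1) ^ 4 * l ^ 4) / 4 := by ring
      _ ≤ _ := by gcongr
  have e4 : l ^ 10 / s0 ≤ D / l ^ 8 / 4 := by
    calc l ^ 10 / s0 = (4 / s0 * l ^ 10) / 4 := by ring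
      _ ≤ _ := by gcongr
  have e5 : 1 + m ≤ D / l ^ 8 / 4 := by
    calc 1 + m ≤ 1 + K := by linarith
      _ = (4 * (1 + K) * l ^ 0) / 4 := by ring
      _ ≤ _ := by gcongr
  refine hb.trans (mul_le_mul_of_nonneg_left ?_ (by linarith))
  linarith

/-- **Sum over the stages** -/
theorem sum_stage (A C1 C : ℝ) (hA : 1 ≤ A) (hC1 : 0 ≤ C1) (hC : 0 ≤ C) :
    ∀ᶠ D : ℝ in atTop, ∑ s ∈ Icc 1 (T.sm A C1 D),
      C * ((1 / 2) ^ s * T.th A D s + D / (T.ll D : ℝ) ^ 3)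
        ≤ C * (3 * A + 1) * (D / T.ll D) := by
  filter_upwards [eventually_ge_atTop (1:ℝ), lD_tendsto.eventually_ge_atTop A,
    ev_sm_le C1 hA hC1] with D hD hlA hsm
  set l : ℝ := (T.ll D : ℝ) with hldef
  have hD0 : 0 < D := by linarith
  have hl1 : 1 ≤ l := by linarith
  have hl0 : 0 < l := by linarith
  have hA0 : 0 < A := by linarith
  have f1 : ∑ s ∈ Icc 1 (T.sm A C1 D), (1 / 2 : ℝ) ^ s * T.th A D s ≤ 3 * A * (D / l) := by
    calc _ ≤ ∑ s ∈ range (T.sm A C1 D + 1), (1 / 2 : ℝ) ^ s * T.th A D s := by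
          apply sum_le_sum_of_subset_of_nonneg
          · intro s hs
            simp only [mem_Icc] at hs
            simp only [mem_range]; omega
          · intro s _ _
            have := th_nonneg' hA0.le hD0.le s
            positivity
      _ = (A * (D / l)) * ∑ s ∈ range (T.sm A C1 D + 1),
            ((1 / 2 : ℝ) ^ s * ((2:ℝ) ^ ((1:ℝ) / 4)) ^ s) := by
          rw [mul_sum]
          refine sum_congr rfl fun s _ => ?_
          rw [th_eq']; ring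
      _ ≤ (A * (D / l)) * 3 := by
          have e1 := geo_quarter (T.sm A C1 D + 1)
          gcongr
      _ = _ := by ring
  have f2 : (T.sm A C1 D : ℝ) * (D / l ^ 3) ≤ D / l := by
    calc (T.sm A C1 D : ℝ) * (D / l ^ 3) ≤ (l * l) * (D / l ^ 3) := by
          have : (T.sm A C1 D : ℝ) ≤ l * l := by nlinarith
          gcongr
      _ = D / l := by field_simp
  rw [← mul_sum, sum_add_distrib, sum_const, Nat.card_Icc, nsmul_eq_mul, Nat.add_sub_cancel,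
    mul_assoc]
  gcongr
  linarith

/-- the same with the stage index `j = s - 1` -/
theorem sum_stage_range (A C1 C : ℝ) (hA : 1 ≤ A) (hC1 : 0 ≤ C1) (hC : 0 ≤ C) :
    ∀ᶠ D : ℝ in atTop, ∑ j ∈ range (T.sm A C1 D),
      C * ((1 / 2) ^ (j + 1) * T.th A D (j + 1) + D / (T.ll D : ℝ) ^ 3)
        ≤ C * (3 * A + 1) * (D / T.ll D) := by
  filter_upwards [sum_stage A C1 C hA hC1 hC] with D hD
  refine le_of_eq_of_le ?_ hD
  rw [range_eq_Ico, sum_Ico_add' (fun s => C * ((1 / 2) ^ s * T.th A D s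
    + D / (T.ll D : ℝ) ^ 3)) 0 (T.sm A C1 D) 1]
  rfl

/-- from the stages to the epoch: if every stage is at most `C (2^(-s) th_s + D / l^3)`, the
epoch is at most `C' D / l` -/
theorem epoch_of_stages (A C1 C : ℝ) (hA : 1 ≤ A) (hC1 : 0 ≤ C1) (hC : 0 ≤ C) :
    ∀ᶠ D : ℝ in atTop, ∀ X : ℕ → ℝ, (∀ j, j < T.sm A C1 D →
      X j ≤ C * ((1 / 2) ^ (j + 1) * T.th A D (j + 1) + D / (T.ll D : ℝ) ^ 3)) →
      ∑ j ∈ range (T.sm A C1 D), X j ≤ C * (3 * A + 1) * (D / T.ll D) := by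
  filter_upwards [sum_stage_range A C1 C hA hC1 hC] with D hD X hX
  exact (sum_le_sum fun j hj => hX j (mem_range.mp hj)).trans hD

end Vale.Agent.P091.T.H284
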