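import Mathlib

/-! # Parameters and account of one epoch

`ll D = 2 log₂ log D` (so `2 ^ ll D = (log D)^2`), thresholds `th A D j = A 2^(j/2) / ll D`. -/

open Real Filter Topology Finset

namespace Vale.Agent.P091.T.H284

/-- `l = 2 log₂ log D` -/
noncomputable def ll (D : ℝ) : ℝ := 2 * Real.logb 2 (Real.log D)

/-- the thresholds `θ_j = A 2^(j/2) / l` -/
noncomputable def th (A D : ℝ) (j : ℕ) : ℝ := A * (2:ℝ) ^ ((j:ℝ) / 2) / ll D

theorem ll_eq (D : ℝ) : ll D = (2 / Real.log 2) * Real.log (Real.log D) := by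
  unfold ll Real.logb; ring

theorem two_rpow_ll {D : ℝ} (hD : 1 < D) : (2:ℝ) ^ ll D = Real.log D ^ 2 := by
  have h0 : 0 < Real.log D := Real.log_pos hD
  unfold ll
  rw [mul_comm, Real.rpow_mul (by norm_num), Real.rpow_logb (by norm_num) (by norm_num) h0]
  exact Real.rpow_two _

theorem ll_tendsto : Tendsto ll atTop atTop := by
  have h : ll = fun D => (2 / Real.log 2) * Real.log (Real.log D) := by
    funext D; exact ll_eq D
  rw [h]
  refine Tendsto.const_mul_atTop (by positivity) ?_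
  exact Real.tendsto_log_atTop.comp Real.tendsto_log_atTop

/-- powers of `l` are smaller than every power of `log D` -/
theorem ev_ll_pow (B : ℕ) (C s : ℝ) (hs : 0 < s) :
    ∀ᶠ D in atTop, C * ll D ^ B ≤ Real.log D ^ s := by
  have h1 := (isLittleO_log_rpow_rpow_atTop (B:ℝ) hs)
  set K : ℝ := |C| * (2 / Real.log 2) ^ B + 1 with hK
  have hl2 : 0 < Real.log 2 := Real.log_pos (by norm_num)
  have hK0 : 0 < K := by positivity
  have h2 := (h1.comp_tendsto Real.tendsto_log_atTop).def (inv_pos.mpr hK0)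
  have h3 : ∀ᶠ D : ℝ in atTop, 1 ≤ Real.log D := Real.tendsto_log_atTop.eventually_ge_atTop 1
  filter_upwards [h2, h3] with D h2 h3
  simp only [Function.comp] at h2
  have h4 : 0 ≤ Real.log (Real.log D) := Real.log_nonneg h3
  have e1 : 0 ≤ Real.log (Real.log D) ^ B := by positivity
  have e2 : 0 ≤ Real.log D ^ s := by positivity
  rw [Real.rpow_natCast, Real.norm_of_nonneg e1, Real.norm_of_nonneg e2] at h2
  rw [ll_eq, mul_pow]
  have h5 : C * ((2 / Real.log 2) ^ B * Real.log (Real.log D) ^ B)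
      ≤ K * Real.log (Real.log D) ^ B := by
    have h6 : C * (2 / Real.log 2) ^ B ≤ K := by
      have : C * (2 / Real.log 2) ^ B ≤ |C| * (2 / Real.log 2) ^ B := by
        gcongr; exact le_abs_self C
      rw [hK]; linarith
    calc C * ((2 / Real.log 2) ^ B * Real.log (Real.log D) ^ B)
        = (C * (2 / Real.log 2) ^ B) * Real.log (Real.log D) ^ B := by ring
      _ ≤ K * Real.log (Real.log D) ^ B := by gcongr
  calc _ ≤ K * Real.log (Real.log D) ^ B := h5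
    _ ≤ K * (K⁻¹ * Real.log D ^ s) := by gcongr
    _ = Real.log D ^ s := by field_simp

/-- powers of `l` and of `log D` are smaller than every power of `D` -/
theorem ev_log_pow (B B' : ℕ) (C s : ℝ) (hs : 0 < s) :
    ∀ᶠ D in atTop, C * (ll D ^ B * Real.log D ^ B') ≤ D ^ s := by
  have h1 := (isLittleO_log_rpow_rpow_atTop ((B' + 1 : ℕ):ℝ) hs)
  have hK0 : 0 < |C| + 1 := by positivity
  have h2 := h1.def (inv_pos.mpr hK0)
  have h3 : ∀ᶠ D : ℝ in atTop, 1 ≤ Real.log D := Real.tendsto_log_atTop.eventually_ge_atTop 1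
  have h4 := ev_ll_pow B 1 1 one_pos
  filter_upwards [h2, h3, h4, eventually_ge_atTop (1:ℝ), ll_tendsto.eventually_ge_atTop 0]
    with D h2 h3 h4 h5 h6
  have e1 : 0 ≤ Real.log D ^ (B' + 1) := by positivity
  have e2 : 0 ≤ D ^ s := by positivity
  rw [Real.rpow_natCast, Real.norm_of_nonneg e1, Real.norm_of_nonneg e2] at h2
  rw [one_mul, Real.rpow_one] at h4
  have h7 : ll D ^ B * Real.log D ^ B' ≤ Real.log D ^ (B' + 1) := by
    rw [pow_succ, mul_comm]; gcongr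
  have h8 : 0 ≤ ll D ^ B * Real.log D ^ B' := by positivity
  calc C * (ll D ^ B * Real.log D ^ B') ≤ (|C| + 1) * (ll D ^ B * Real.log D ^ B') := by
        gcongr; linarith [le_abs_self C]
    _ ≤ (|C| + 1) * Real.log D ^ (B' + 1) := by gcongr
    _ ≤ (|C| + 1) * ((|C| + 1)⁻¹ * D ^ s) := by gcongr
    _ = D ^ s := by field_simp

/-- `exp (- s D / l)` beats every power of `D` -/
theorem ev_exp (B : ℕ) (C s : ℝ) (hs : 0 < s) :
    ∀ᶠ D in atTop, C * (D ^ B * Real.exp (-(s * (D / ll D)))) ≤ 1 := by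
  have h1 : Tendsto (fun D : ℝ => s * √D) atTop atTop :=
    Tendsto.const_mul_atTop hs tendsto_sqrt_atTop
  have h2 := (Real.tendsto_pow_mul_exp_neg_atTop_nhds_zero (2 * B)).comp h1
  have h3 : Tendsto (fun D : ℝ => |C| * (s⁻¹) ^ (2 * B) *
      ((s * √D) ^ (2 * B) * Real.exp (-(s * √D)))) atTop (𝓝 0) := by
    have := h2.const_mul (|C| * (s⁻¹) ^ (2 * B))
    rw [mul_zero] at this
    exact this
  have h4 := h3.eventually (eventually_le_nhds (zero_lt_one))
  have h5 := ev_log_pow 1 0 1 (1/2) (by norm_num)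
  filter_upwards [h4, h5, eventually_ge_atTop (1:ℝ), ll_tendsto.eventually_ge_atTop 1]
    with D h4 h5 h6 h7
  have hD : 0 < D := by linarith
  have hsq : 0 < √D := Real.sqrt_pos.mpr hD
  have h8 : ll D ≤ √D := by
    rw [Real.sqrt_eq_rpow]; simpa using h5
  have h9 : √D ≤ D / ll D := by
    rw [le_div_iff₀ (by linarith)]
    calc √D * ll D ≤ √D * √D := by gcongr
      _ = D := Real.mul_self_sqrt hD.le
  have h10 : Real.exp (-(s * (D / ll D))) ≤ Real.exp (-(s * √D)) := by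
    apply Real.exp_le_exp.mpr
    have : s * √D ≤ s * (D / ll D) := by gcongr
    linarith
  have h11 : D ^ B = (s⁻¹) ^ (2 * B) * (s * √D) ^ (2 * B) := by
    rw [← mul_pow, inv_mul_cancel_left₀ hs.ne', pow_mul, Real.sq_sqrt hD.le]
  calc C * (D ^ B * Real.exp (-(s * (D / ll D))))
      ≤ |C| * (D ^ B * Real.exp (-(s * √D))) := by
        have : 0 ≤ D ^ B * Real.exp (-(s * (D / ll D))) := by positivity
        calc C * (D ^ B * Real.exp (-(s * (D / ll D))))
            ≤ |C| * (D ^ B * Real.exp (-(s * (D / ll D)))) := by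
              gcongr; exact le_abs_self C
          _ ≤ |C| * (D ^ B * Real.exp (-(s * √D))) := by gcongr
    _ = |C| * (s⁻¹) ^ (2 * B) * ((s * √D) ^ (2 * B) * Real.exp (-(s * √D))) := by
        rw [h11]; ring
    _ ≤ 1 := h4

/-! ## the levels -/

theorem two_rpow_half (j : ℕ) : (2:ℝ) ^ ((j:ℝ) / 2) = √2 ^ j := by
  rw [Real.sqrt_eq_rpow, ← Real.rpow_natCast, ← Real.rpow_mul (by norm_num)]
  congr 1; ring

theorem th_eq (A D : ℝ) (j : ℕ) : th A D j = A / ll D * √2 ^ j := by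
  unfold th; rw [two_rpow_half]; ring

theorem th_zero (A D : ℝ) : th A D 0 = A / ll D := by simp [th_eq]

theorem th_succ (A D : ℝ) (j : ℕ) : th A D (j + 1) = √2 * th A D j := by
  rw [th_eq, th_eq, pow_succ]; ring

theorem th_nonneg {A D : ℝ} (hA : 0 ≤ A) (hl : 0 ≤ ll D) (j : ℕ) : 0 ≤ th A D j := by
  rw [th_eq]; positivity

theorem th_mono {A D : ℝ} (hA : 0 ≤ A) (hl : 0 ≤ ll D) {i j : ℕ} (h : i ≤ j) :
    th A D i ≤ th A D j := by
  rw [th_eq, th_eq]
  have : (1:ℝ) ≤ √2 := Real.one_le_sqrt.mpr (by norm_num)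
  gcongr

/-- the top level `jm` = first level with `θ ≥ C1` -/
theorem exists_top {A C1 D : ℝ} (hA : 0 < A) (hC : 0 < C1) (hl : 0 < ll D)
    (h0 : th A D 0 < C1) :
    ∃ jm : ℕ, 1 ≤ jm ∧ C1 ≤ th A D jm ∧ (∀ j < jm, th A D j < C1) ∧
      (∀ j ≤ jm, th A D j ≤ √2 * C1) ∧ (2:ℝ) ^ jm ≤ 2 * (C1 * ll D / A) ^ 2 := by
  have hs : (1:ℝ) < √2 := by
    rw [show (1:ℝ) = √1 by simp]; exact Real.sqrt_lt_sqrt (by norm_num) (by norm_num)
  have hex : ∃ j : ℕ, C1 ≤ th A D j := by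
    obtain ⟨j, hj⟩ := pow_unbounded_of_one_lt (C1 / (A / ll D)) hs
    refine ⟨j, ?_⟩
    rw [th_eq]
    have h1 : 0 < A / ll D := by positivity
    rw [div_lt_iff₀ h1] at hj
    linarith [mul_comm (A / ll D) (√2 ^ j)]
  classical
  refine ⟨Nat.find hex, ?_, Nat.find_spec hex, fun j hj => not_le.mp (Nat.find_min hex hj), ?_, ?_⟩
  · by_contra h
    have h1 : Nat.find hex = 0 := by omega
    have := Nat.find_spec hex
    rw [h1] at this
    linarith
  · intro j hj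
    rcases Nat.lt_or_ge j (Nat.find hex) with h | h
    · have h1 := not_le.mp (Nat.find_min hex h)
      nlinarith
    · have h1 : j = Nat.find hex := le_antisymm hj h
      have h2 : Nat.find hex ≠ 0 := by
        intro h3
        have := Nat.find_spec hex
        rw [h3] at this
        linarith
      obtain ⟨i, hi⟩ := Nat.exists_eq_succ_of_ne_zero h2
      have h3 := not_le.mp (Nat.find_min hex (m := i) (by omega))
      rw [h1, hi, th_succ]
      gcongr
  · have h2 : Nat.find hex ≠ 0 := by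
      intro h3
      have := Nat.find_spec hex
      rw [h3] at this
      linarith
    obtain ⟨i, hi⟩ := Nat.exists_eq_succ_of_ne_zero h2
    have h3 := not_le.mp (Nat.find_min hex (m := i) (by omega))
    rw [th_eq, div_mul_eq_mul_div, div_lt_iff₀ hl] at h3
    have h4 : √2 ^ i ≤ C1 * ll D / A := by
      rw [le_div_iff₀ hA]; linarith [mul_comm A (√2 ^ i)]
    rw [hi, Nat.succ_eq_add_one, pow_succ]
    have h5 : (2:ℝ) ^ i = (√2 ^ i) ^ 2 := by
      rw [← pow_mul, mul_comm i 2, pow_mul, Real.sq_sqrt (by norm_num)]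
    rw [h5]
    have h6 : (√2 ^ i) ^ 2 ≤ (C1 * ll D / A) ^ 2 := by gcongr
    linarith

theorem cube_le (n : ℕ) : (n + 1) ^ 3 ≤ 8 * 2 ^ n := by
  rcases Nat.lt_or_ge n 4 with h | h
  · interval_cases n <;> norm_num
  · induction n, h using Nat.le_induction with
    | base => norm_num
    | succ n hn ih =>
      rw [pow_succ 2 n]
      nlinarith [sq_nonneg n]

/-- the number of levels is at most `l` -/
theorem top_le {A C1 D : ℝ} (hA : 1 ≤ A) (hC : 0 < C1) (hl : 1 ≤ ll D)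
    (hl2 : 16 * C1 ^ 2 ≤ ll D) {jm : ℕ} (h : (2:ℝ) ^ jm ≤ 2 * (C1 * ll D / A) ^ 2) :
    (jm:ℝ) + 1 ≤ ll D := by
  have h1 : ((jm:ℝ) + 1) ^ 3 ≤ 8 * 2 ^ jm := by exact_mod_cast cube_le jm
  have h2 : C1 * ll D / A ≤ C1 * ll D := div_le_self (by positivity) hA
  have h3 : (C1 * ll D / A) ^ 2 ≤ (C1 * ll D) ^ 2 := by gcongr
  have h4 : ((jm:ℝ) + 1) ^ 3 ≤ ll D ^ 3 := by
    calc ((jm:ℝ) + 1) ^ 3 ≤ 8 * 2 ^ jm := h1
      _ ≤ 8 * (2 * (C1 * ll D) ^ 2) := by linarith
      _ = (16 * C1 ^ 2) * ll D ^ 2 := by ring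
      _ ≤ ll D * ll D ^ 2 := by gcongr
      _ = ll D ^ 3 := by ring
  exact le_of_pow_le_pow_left₀ (by norm_num) (by linarith) h4

/-! ## the account of one epoch -/

theorem sqrt_two_bounds : 1 ≤ √2 ∧ √2 ≤ 10 / 7 := by
  refine ⟨Real.one_le_sqrt.mpr (by norm_num), ?_⟩
  rw [show (10:ℝ) / 7 = √((10 / 7) ^ 2) by rw [Real.sqrt_sq (by norm_num)]]
  exact Real.sqrt_le_sqrt (by norm_num)

/-- `∑ 2^(1-j) 2^(j/2) ≤ 7` -/
theorem geo_half (n : ℕ) : ∑ j ∈ range n, 2 * (1 / 2 : ℝ) ^ j * √2 ^ j ≤ 7 := by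
  have hs := sqrt_two_bounds
  have key : ∀ n : ℕ, ∑ j ∈ range n, 2 * (1 / 2 : ℝ) ^ j * √2 ^ j ≤ 7 - 7 * (√2 / 2) ^ n := by
    intro n
    induction n with
    | zero => simp
    | succ n ih =>
      rw [sum_range_succ, pow_succ]
      have h1 : 2 * (1 / 2 : ℝ) ^ n * √2 ^ n = 2 * (√2 / 2) ^ n := by
        rw [mul_assoc, ← mul_pow]; congr 2; ring
      have h2 : 0 ≤ (√2 / 2) ^ n := by positivity
      rw [h1]
      nlinarith
  have := key n
  have h2 : 0 ≤ (√2 / 2) ^ n := by positivity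
  linarith

theorem geo_two (n : ℕ) : ∑ j ∈ range n, 2 * (1 / 2 : ℝ) ^ j ≤ 4 := by
  have key : ∀ n : ℕ, ∑ j ∈ range n, 2 * (1 / 2 : ℝ) ^ j = 4 - 4 * (1 / 2 : ℝ) ^ n := by
    intro n
    induction n with
    | zero => norm_num
    | succ n ih => rw [sum_range_succ, ih, pow_succ]; ring
  rw [key n]
  have h2 : 0 ≤ (1 / 2 : ℝ) ^ n := by positivity
  linarith

/-- the cost of one stage in Lemma E (`H413.EDefs.LemmaE`) -/
noncomputable def cost (δ h m I b : ℝ) : ℝ :=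
  δ * h + √((1 + m + h + I) * (1 + m + I + √(I * h))) + √(h * b)

theorem sqrt_mul_sq' {a x : ℝ} (ha : 0 ≤ a) (hx : 0 ≤ x) : √(a * x ^ 2) = √a * x := by
  rw [Real.sqrt_mul ha, Real.sqrt_sq hx]

theorem div_pow_le {D l : ℝ} (hD : 0 ≤ D) (hl : 1 ≤ l) {i j : ℕ} (h : i ≤ j) :
    D / l ^ j ≤ D / l ^ i := by
  have h0 : 0 < l := by linarith
  exact div_le_div_of_nonneg_left hD (by positivity) (pow_le_pow_right₀ hl h)

/-- bound of the second and third term of `cost` -/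
theorem cost_rest {D l C h m I b K1 : ℝ} (hD : 1 ≤ D) (hl : 1 ≤ l) (hlD : l ^ 6 ≤ √D)
    (hC : 1 ≤ C) (hK : 0 ≤ K1) (h0 : 0 ≤ h) (h1 : h ≤ K1 * D) (m0 : 0 ≤ m) (m1 : m ≤ C)
    (I0 : 0 ≤ I) (I1 : I ≤ C * (1 + D / l ^ 12)) (b1 : b ≤ C * (D / l ^ 8)) :
    √((1 + m + h + I) * (1 + m + I + √(I * h))) + √(h * b)
      ≤ (√(2 * (1 + 3 * C + K1) * (1 + 3 * C + √(2 * C * K1))) + √(K1 * C)) * (D / l ^ 3) := by
  have hD0 : 0 < D := by linarith
  have hl0 : 0 < l := by linarith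
  have hsq : 1 ≤ √D := Real.one_le_sqrt.mpr hD
  have hsq2 : √D * √D = D := Real.mul_self_sqrt hD0.le
  have e6 : √D ≤ D / l ^ 6 := by
    rw [le_div_iff₀ (by positivity)]
    calc √D * l ^ 6 ≤ √D * √D := by gcongr
      _ = D := hsq2
  have e12 : D / l ^ 12 ≤ D / l ^ 6 := div_pow_le hD0.le hl (by norm_num)
  have e12' : D / l ^ 12 ≤ D := div_le_self hD0.le (one_le_pow₀ hl)
  have hIl : I ≤ C * (2 * D) := I1.trans (by gcongr; linarith)
  have f1 : 1 + m + h + I ≤ (1 + 3 * C + K1) * D := by nlinarith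
  have d6 : 1 ≤ D / l ^ 6 := hsq.trans e6
  have hIh : I * h ≤ (2 * C * K1) * (D / l ^ 6) ^ 2 := by
    have g1 : I ≤ C * (1 + D / l ^ 12) := I1
    have g2 : I * h ≤ C * (1 + D / l ^ 12) * (K1 * D) := by gcongr
    have g3 : D ≤ (D / l ^ 6) ^ 2 := by
      calc D = √D * √D := hsq2.symm
        _ ≤ (D / l ^ 6) * (D / l ^ 6) := by gcongr
        _ = (D / l ^ 6) ^ 2 := by ring
    have g4 : D / l ^ 12 * D = (D / l ^ 6) ^ 2 := by
      rw [div_pow, ← pow_mul]; ring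
    calc I * h ≤ C * (1 + D / l ^ 12) * (K1 * D) := g2
      _ = C * K1 * (D + D / l ^ 12 * D) := by ring
      _ ≤ C * K1 * ((D / l ^ 6) ^ 2 + (D / l ^ 6) ^ 2) := by rw [g4]; gcongr
      _ = (2 * C * K1) * (D / l ^ 6) ^ 2 := by ring
  have hs : √(I * h) ≤ √(2 * C * K1) * (D / l ^ 6) := by
    rw [← sqrt_mul_sq' (by positivity) (by positivity)]
    exact Real.sqrt_le_sqrt hIh
  have f2 : 1 + m + I + √(I * h) ≤ (1 + 3 * C + √(2 * C * K1)) * (D / l ^ 6) := by
    have g1 : I ≤ C * (D / l ^ 6 + D / l ^ 6) := I1.trans (by gcongr)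
    nlinarith
  have hn1 : 0 ≤ 1 + m + I + √(I * h) := by positivity
  have hn2 : 0 ≤ (1 + 3 * C + K1) * D := by positivity
  have f3 : (1 + m + h + I) * (1 + m + I + √(I * h))
      ≤ (2 * (1 + 3 * C + K1) * (1 + 3 * C + √(2 * C * K1))) * (D / l ^ 3) ^ 2 := by
    calc (1 + m + h + I) * (1 + m + I + √(I * h))
        ≤ ((1 + 3 * C + K1) * D) * ((1 + 3 * C + √(2 * C * K1)) * (D / l ^ 6)) :=
          mul_le_mul f1 f2 hn1 hn2
      _ = ((1 + 3 * C + K1) * (1 + 3 * C + √(2 * C * K1))) * (D / l ^ 3) ^ 2 := by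
          rw [div_pow, ← pow_mul]; ring
      _ ≤ (2 * (1 + 3 * C + K1) * (1 + 3 * C + √(2 * C * K1))) * (D / l ^ 3) ^ 2 := by
          have : 0 ≤ (1 + 3 * C + K1) * (1 + 3 * C + √(2 * C * K1)) := by positivity
          gcongr ?_ * _
          nlinarith
  have t1 : √((1 + m + h + I) * (1 + m + I + √(I * h)))
      ≤ √(2 * (1 + 3 * C + K1) * (1 + 3 * C + √(2 * C * K1))) * (D / l ^ 3) := by
    rw [← sqrt_mul_sq' (by positivity) (by positivity)]
    exact Real.sqrt_le_sqrt f3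
  have t2 : √(h * b) ≤ √(K1 * C) * (D / l ^ 3) := by
    have g1 : h * b ≤ (K1 * C) * (D / l ^ 4) ^ 2 := by
      calc h * b ≤ h * (C * (D / l ^ 8)) := by gcongr
        _ ≤ (K1 * D) * (C * (D / l ^ 8)) := by gcongr
        _ = (K1 * C) * (D / l ^ 4) ^ 2 := by rw [div_pow, ← pow_mul]; ring
    calc √(h * b) ≤ √((K1 * C) * (D / l ^ 4) ^ 2) := Real.sqrt_le_sqrt g1
      _ = √(K1 * C) * (D / l ^ 4) := sqrt_mul_sq' (by positivity) (by positivity)
      _ ≤ √(K1 * C) * (D / l ^ 3) := by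
          have := div_pow_le hD0.le hl (show 3 ≤ 4 by norm_num)
          gcongr
  calc _ ≤ _ := add_le_add t1 t2
    _ = _ := by ring

/-- **Account of one epoch.**  `jm + 1` stages, stage `j` with bias `δ j ≤ 2^(1-j)`, list
information `h j ≤ C (θ_j D + 1)`, value information `I ≤ C (1 + D / l^12)`, removed mass `≤ C`,
energy of the bad pairs `b j ≤ C D / l^8`: total cost `≤ C' (A D / l)`, `C'` independent of `A`
and `C1`. -/
theorem acc (A C1 CE C : ℝ) (hA : 1 ≤ A) (hC1 : 0 < C1) (hCE : 0 ≤ CE) (hC : 1 ≤ C) :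
    ∀ᶠ D in atTop, ∀ jm : ℕ, (∀ j ≤ jm, th A D j ≤ √2 * C1) →
      (2:ℝ) ^ jm ≤ 2 * (C1 * ll D / A) ^ 2 →
      ∀ (I m : ℝ) (δ h b : ℕ → ℝ), 0 ≤ I → I ≤ C * (1 + D / ll D ^ 12) → 0 ≤ m → m ≤ C →
        (∀ j ≤ jm, 0 ≤ δ j ∧ δ j ≤ 2 * (1 / 2) ^ j) →
        (∀ j ≤ jm, 0 ≤ h j ∧ h j ≤ C * (th A D j * D + 1)) →
        (∀ j ≤ jm, b j ≤ C * (D / ll D ^ 8)) →
        ∑ j ∈ range (jm + 1), CE * cost (δ j) (h j) m I (b j) ≤ (12 * CE * C) * (A * D / ll D) := by
  set K1 : ℝ := C * (2 * C1 + 1) with hK1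
  set K2 : ℝ := √(2 * (1 + 3 * C + K1) * (1 + 3 * C + √(2 * C * K1))) + √(K1 * C) with hK2
  have hl := ev_log_pow 6 0 1 (1 / 2) (by norm_num)
  have hl1 := ev_log_pow 1 0 1 (1 / 2) (by norm_num)
  filter_upwards [eventually_ge_atTop (16:ℝ), ll_tendsto.eventually_ge_atTop 1,
    ll_tendsto.eventually_ge_atTop (16 * C1 ^ 2), ll_tendsto.eventually_ge_atTop K2, hl, hl1]
    with D hD hl1 hl2 hl3 hl6 hlD jm hth hjm I m δ h b I0 I1 m0 m1 hδ hh hb
  have hD0 : 0 < D := by linarith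
  have hl0 : 0 < ll D := by linarith
  have hA0 : 0 < A := by linarith
  have hjl := top_le hA hC1 hl1 hl2 hjm
  have hlD6 : ll D ^ 6 ≤ √D := by rw [Real.sqrt_eq_rpow]; simpa using hl6
  have hlDs : ll D ≤ √D := by rw [Real.sqrt_eq_rpow]; simpa using hlD
  have hs4 : 4 ≤ √D := by
    rw [show (4:ℝ) = √(4 ^ 2) by rw [Real.sqrt_sq (by norm_num)]]
    exact Real.sqrt_le_sqrt (by linarith)
  have h4 : 4 ≤ D / ll D := by
    rw [le_div_iff₀ hl0]
    calc 4 * ll D ≤ √D * √D := by gcongr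
      _ = D := Real.mul_self_sqrt hD0.le
  have hsq2 := sqrt_two_bounds
  -- the first terms
  have first : ∑ j ∈ range (jm + 1), δ j * h j ≤ C * (7 * (A * D / ll D) + 4) := by
    have g : ∀ j ∈ range (jm + 1), δ j * h j ≤
        C * ((A * D / ll D) * (2 * (1 / 2 : ℝ) ^ j * √2 ^ j) + 2 * (1 / 2 : ℝ) ^ j) := by
      intro j hj
      have hj' : j ≤ jm := by simp only [mem_range] at hj; omega
      obtain ⟨d0, d1⟩ := hδ j hj'
      obtain ⟨p0, p1⟩ := hh j hj'
      calc δ j * h j ≤ (2 * (1 / 2) ^ j) * (C * (th A D j * D + 1)) := by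
            gcongr
        _ = _ := by rw [th_eq]; ring
    calc _ ≤ ∑ j ∈ range (jm + 1), C * ((A * D / ll D) * (2 * (1 / 2 : ℝ) ^ j * √2 ^ j)
          + 2 * (1 / 2 : ℝ) ^ j) := sum_le_sum g
      _ = C * ((A * D / ll D) * ∑ j ∈ range (jm + 1), (2 * (1 / 2 : ℝ) ^ j * √2 ^ j)
          + ∑ j ∈ range (jm + 1), 2 * (1 / 2 : ℝ) ^ j) := by
          rw [← mul_sum, sum_add_distrib, ← mul_sum]
      _ ≤ C * ((A * D / ll D) * 7 + 4) := by
          have := geo_half (jm + 1)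
          have := geo_two (jm + 1)
          gcongr
      _ = _ := by ring
  -- the other terms
  have rest : ∀ j ∈ range (jm + 1), cost (δ j) (h j) m I (b j) - δ j * h j
      ≤ K2 * (D / ll D ^ 3) := by
    intro j hj
    have hj' : j ≤ jm := by simp only [mem_range] at hj; omega
    obtain ⟨p0, p1⟩ := hh j hj'
    have hk : h j ≤ K1 * D := by
      calc h j ≤ C * (th A D j * D + 1) := p1
        _ ≤ C * (√2 * C1 * D + 1) := by gcongr; exact hth j hj'
        _ ≤ C * (2 * C1 * D + D) := by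
          gcongr
          · linarith
          · linarith
        _ = K1 * D := by rw [hK1]; ring
    have := cost_rest (D := D) (l := ll D) (by linarith) hl1 hlD6 hC (by positivity : 0 ≤ K1)
      p0 hk m0 m1 I0 I1 (hb j hj')
    unfold cost
    linarith
  have total : ∑ j ∈ range (jm + 1), cost (δ j) (h j) m I (b j)
      ≤ C * (7 * (A * D / ll D) + 4) + (jm + 1) * (K2 * (D / ll D ^ 3)) := by
    have e : ∑ j ∈ range (jm + 1), cost (δ j) (h j) m I (b j)
        = ∑ j ∈ range (jm + 1), δ j * h j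
          + ∑ j ∈ range (jm + 1), (cost (δ j) (h j) m I (b j) - δ j * h j) := by
      rw [← sum_add_distrib]; refine sum_congr rfl fun j _ => ?_; ring
    rw [e]
    have e2 := sum_le_card_nsmul (range (jm + 1)) _ _ rest
    rw [card_range, nsmul_eq_mul] at e2
    push_cast at e2
    linarith
  have hq : ((jm:ℝ) + 1) * (K2 * (D / ll D ^ 3)) ≤ D / ll D := by
    have hK20 : 0 ≤ K2 := by positivity
    calc ((jm:ℝ) + 1) * (K2 * (D / ll D ^ 3)) ≤ ll D * (ll D * (D / ll D ^ 3)) := by gcongr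
      _ = D / ll D := by field_simp
  have hAD : D / ll D ≤ A * D / ll D := by
    gcongr
    nlinarith
  rw [← mul_sum]
  have hfin : ∑ j ∈ range (jm + 1), cost (δ j) (h j) m I (b j) ≤ 12 * C * (A * D / ll D) := by
    have g1 : 4 ≤ A * D / ll D := h4.trans hAD
    nlinarith
  calc CE * ∑ j ∈ range (jm + 1), cost (δ j) (h j) m I (b j)
      ≤ CE * (12 * C * (A * D / ll D)) := by gcongr
    _ = _ := by ring

end Vale.Agent.P091.T.H284
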