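import Vale.Agent.P091.T.Defs
import Vale.Agent.P091.T.H284.Acc

/-! # Account of one epoch in the letters of `T/Defs` -/

set_option autoImplicit false

open Real Filter Topology Finset

namespace Vale.Agent.P091.T.H284

theorem lD_ge (D : ℝ) : ll D + 1 ≤ (T.ll D : ℝ) := by
  unfold T.ll ll
  have := Nat.le_ceil (2 * Real.logb 2 (Real.log D))
  push_cast
  linarith

theorem lD_le {D : ℝ} (h : 0 ≤ ll D) : (T.ll D : ℝ) ≤ ll D + 2 := by
  unfold T.ll ll at *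
  have := Nat.ceil_lt_add_one h
  push_cast
  linarith

theorem lD_tendsto : Tendsto (fun D : ℝ => (T.ll D : ℝ)) atTop atTop :=
  tendsto_atTop_mono (fun D => by have := lD_ge D; linarith) ll_tendsto

theorem lD_le_two : ∀ᶠ D : ℝ in atTop, (T.ll D : ℝ) ≤ 2 * ll D := by
  filter_upwards [ll_tendsto.eventually_ge_atTop 2] with D hD
  have := lD_le (D := D) (by linarith)
  linarith

/-- powers of `l` are smaller than every power of `log D` -/
theorem ev_l_pow (B : ℕ) (C s : ℝ) (hs : 0 < s) :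
    ∀ᶠ D : ℝ in atTop, C * (T.ll D : ℝ) ^ B ≤ Real.log D ^ s := by
  filter_upwards [ev_ll_pow B (|C| * 2 ^ B) s hs, lD_le_two] with D h1 h2
  calc C * (T.ll D : ℝ) ^ B ≤ |C| * (2 * ll D) ^ B := by
        gcongr
        exact le_abs_self C
    _ = (|C| * 2 ^ B) * ll D ^ B := by rw [mul_pow]; ring
    _ ≤ _ := h1

/-- powers of `l` and of `log D` are smaller than every power of `D` -/
theorem ev_l_log_pow (B B' : ℕ) (C s : ℝ) (hs : 0 < s) :
    ∀ᶠ D : ℝ in atTop, C * ((T.ll D : ℝ) ^ B * Real.log D ^ B') ≤ D ^ s := by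
  filter_upwards [ev_log_pow B B' (|C| * 2 ^ B) s hs, lD_le_two,
    Real.tendsto_log_atTop.eventually_ge_atTop 0] with D h1 h2 h3
  calc C * ((T.ll D : ℝ) ^ B * Real.log D ^ B') ≤ |C| * ((2 * ll D) ^ B * Real.log D ^ B') := by
        gcongr
        exact le_abs_self C
    _ = (|C| * 2 ^ B) * (ll D ^ B * Real.log D ^ B') := by rw [mul_pow]; ring
    _ ≤ _ := h1

/-- `exp (- s D / l ^ B')` beats every power of `D` -/
theorem ev_l_exp (B B' : ℕ) (C s : ℝ) (hs : 0 < s) :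
    ∀ᶠ D : ℝ in atTop, C * (D ^ B * Real.exp (-(s * (D / (T.ll D : ℝ) ^ B')))) ≤ 1 := by
  have h5 := ev_l_log_pow B' 0 1 (1/2) (by norm_num)
  have h6 := ev_exp B |C| s hs
  have h1 : Tendsto (fun D : ℝ => s * √D) atTop atTop :=
    Tendsto.const_mul_atTop hs tendsto_sqrt_atTop
  have h2 := (Real.tendsto_pow_mul_exp_neg_atTop_nhds_zero (2 * B)).comp h1
  have h3 : Tendsto (fun D : ℝ => |C| * (s⁻¹) ^ (2 * B) *
      ((s * √D) ^ (2 * B) * Real.exp (-(s * √D)))) atTop (𝓝 0) := by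
    have := h2.const_mul (|C| * (s⁻¹) ^ (2 * B))
    rw [mul_zero] at this
    exact this
  have h4 := h3.eventually (eventually_le_nhds (zero_lt_one))
  filter_upwards [h4, h5, eventually_ge_atTop (1:ℝ), lD_tendsto.eventually_ge_atTop 1]
    with D h4 h5 h6 h7
  have hD : 0 < D := by linarith
  have hl0 : 0 < (T.ll D : ℝ) := by linarith
  have h8 : (T.ll D : ℝ) ^ B' ≤ √D := by
    rw [Real.sqrt_eq_rpow]; simpa using h5
  have h9 : √D ≤ D / (T.ll D : ℝ) ^ B' := by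
    rw [le_div_iff₀ (by positivity)]
    calc √D * (T.ll D : ℝ) ^ B' ≤ √D * √D := by gcongr
      _ = D := Real.mul_self_sqrt hD.le
  have h10 : Real.exp (-(s * (D / (T.ll D : ℝ) ^ B'))) ≤ Real.exp (-(s * √D)) := by
    apply Real.exp_le_exp.mpr
    have : s * √D ≤ s * (D / (T.ll D : ℝ) ^ B') := by gcongr
    linarith
  have h11 : D ^ B = (s⁻¹) ^ (2 * B) * (s * √D) ^ (2 * B) := by
    rw [← mul_pow, inv_mul_cancel_left₀ hs.ne', pow_mul, Real.sq_sqrt hD.le]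
  calc C * (D ^ B * Real.exp (-(s * (D / (T.ll D : ℝ) ^ B'))))
      ≤ |C| * (D ^ B * Real.exp (-(s * (D / (T.ll D : ℝ) ^ B')))) := by
        gcongr; exact le_abs_self C
    _ ≤ |C| * (D ^ B * Real.exp (-(s * √D))) := by gcongr
    _ = |C| * (s⁻¹) ^ (2 * B) * ((s * √D) ^ (2 * B) * Real.exp (-(s * √D))) := by
        rw [h11]; ring
    _ ≤ 1 := h4

/-- the accuracy of the units beats every power of `l` -/
theorem ev_ep (B : ℕ) (C c : ℝ) (hc : 0 < c) :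
    ∀ᶠ D : ℝ in atTop, C * ep c D ≤ ((T.ll D : ℝ) ^ B)⁻¹ := by
  filter_upwards [ev_l_pow B |C| c hc, Real.tendsto_log_atTop.eventually_ge_atTop 1,
    lD_tendsto.eventually_ge_atTop 1] with D h1 h2 h3
  have h0 : 0 < Real.log D := by linarith
  have hl0 : 0 < (T.ll D : ℝ) := by linarith
  unfold ep
  rw [Real.rpow_neg h0.le, ← div_eq_mul_inv, div_le_iff₀ (by positivity),
    ← div_eq_inv_mul, le_div_iff₀ (by positivity)]
  calc C * (T.ll D : ℝ) ^ B ≤ |C| * (T.ll D : ℝ) ^ B := by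
        gcongr; exact le_abs_self C
    _ ≤ _ := h1

/-! ## the stages -/

/-- `(2 ^ (1/4)) ^ s` -/
theorem th_eq' (A D : ℝ) (s : ℕ) :
    T.th A D s = A / T.ll D * D * ((2:ℝ) ^ ((1:ℝ) / 4)) ^ s := by
  unfold T.th
  rw [← Real.rpow_natCast ((2:ℝ) ^ ((1:ℝ) / 4)), ← Real.rpow_mul (by norm_num)]
  rw [show (1:ℝ) / 4 * (s:ℝ) = (s:ℝ) / 4 by ring]
  ring

theorem sm_le (A C1 D : ℝ) :
    (T.sm A C1 D : ℝ) ≤ max 0 (4 * Real.logb 2 ((C1 + 1) * T.ll D / A)) + 2 := by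
  unfold T.sm
  set x := 4 * Real.logb 2 ((C1 + 1) * T.ll D / A)
  rcases le_or_gt 0 x with h | h
  · have := Nat.ceil_lt_add_one h
    push_cast
    rw [max_eq_right h]
    linarith
  · rw [Nat.ceil_eq_zero.mpr h.le, max_eq_left h.le]
    norm_num

/-- for all stages `th ≤ 2 (C1 + 1) D` -/
theorem th_le {A C1 D : ℝ} (hA : 0 < A) (hC : 0 ≤ C1) (hD : 0 ≤ D) (hl : A ≤ T.ll D) {s : ℕ}
    (hs : s ≤ T.sm A C1 D) : T.th A D s ≤ 2 * (C1 + 1) * D := by
  have hl0 : 0 < (T.ll D : ℝ) := by linarith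
  set q : ℝ := (C1 + 1) * T.ll D / A with hq
  have hq1 : 1 ≤ q := by
    rw [hq, le_div_iff₀ hA]; nlinarith
  have h1 : (s:ℝ) ≤ 4 * Real.logb 2 q + 2 := by
    have h2 := sm_le A C1 D
    rw [← hq, max_eq_right (by have := Real.logb_nonneg (b := 2) (by norm_num) hq1; linarith)] at h2
    have h3 : (s:ℝ) ≤ T.sm A C1 D := by exact_mod_cast hs
    linarith
  have h2 : (2:ℝ) ^ ((s:ℝ) / 4) ≤ 2 * q := by
    calc (2:ℝ) ^ ((s:ℝ) / 4) ≤ (2:ℝ) ^ (Real.logb 2 q + 1) := by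
          apply Real.rpow_le_rpow_of_exponent_le (by norm_num)
          linarith
      _ = 2 * q := by
          rw [Real.rpow_add (by norm_num), Real.rpow_logb (by norm_num) (by norm_num)
            (by linarith), Real.rpow_one]
          ring
  unfold T.th
  calc A * (2:ℝ) ^ ((s:ℝ) / 4) / T.ll D * D ≤ A * (2 * q) / T.ll D * D := by gcongr
    _ = 2 * (C1 + 1) * D := by rw [hq]; field_simp

theorem th_nonneg' {A D : ℝ} (hA : 0 ≤ A) (hD : 0 ≤ D) (s : ℕ) : 0 ≤ T.th A D s := by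
  unfold T.th; positivity

/-- the number of stages and `2 ^ sm` are powers of `l` -/
theorem two_pow_sm {A C1 D : ℝ} (hA : 1 ≤ A) (hC : 0 ≤ C1) (hl : A ≤ T.ll D) :
    (2:ℝ) ^ (T.sm A C1 D) ≤ 4 * ((C1 + 1) * T.ll D) ^ 4 := by
  have hl0 : 0 < (T.ll D : ℝ) := by linarith
  set q : ℝ := (C1 + 1) * T.ll D / A with hq
  have hA0 : 0 < A := by linarith
  have hq1 : 1 ≤ q := by
    rw [hq, le_div_iff₀ hA0]; nlinarith
  have h2 := sm_le A C1 D
  rw [← hq, max_eq_right (by have := Real.logb_nonneg (b := 2) (by norm_num) hq1; linarith)] at h2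
  rw [← Real.rpow_natCast]
  calc (2:ℝ) ^ (T.sm A C1 D : ℝ) ≤ (2:ℝ) ^ (4 * Real.logb 2 q + 2) :=
        Real.rpow_le_rpow_of_exponent_le (by norm_num) h2
    _ = 4 * q ^ 4 := by
        rw [Real.rpow_add (by norm_num), mul_comm (4:ℝ) (Real.logb 2 q), Real.rpow_mul
          (by norm_num), Real.rpow_logb (by norm_num) (by norm_num) (by linarith)]
        norm_num
        ring
    _ ≤ 4 * ((C1 + 1) * T.ll D) ^ 4 := by
        have : q ≤ (C1 + 1) * T.ll D := div_le_self (by positivity) hA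
        gcongr

theorem cost_split {δ h m I b K E : ℝ} (hδ : 0 ≤ δ) (hh : 0 ≤ h) (hK : 0 ≤ K) (hE : 0 ≤ E)
    (hb : b ≤ K * (δ ^ 2 * h + E)) :
    cost δ h m I b ≤ √K * (δ * h) + cost δ h m I (K * E) := by
  have h1 : √(h * b) ≤ √K * (δ * h) + √(h * (K * E)) := by
    have h2 : h * b ≤ K * (δ * h) ^ 2 + h * (K * E) := by
      calc h * b ≤ h * (K * (δ ^ 2 * h + E)) := by gcongr
        _ = _ := by ring
    calc √(h * b) ≤ √(K * (δ * h) ^ 2 + h * (K * E)) := Real.sqrt_le_sqrt h2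
      _ ≤ √(K * (δ * h) ^ 2) + √(h * (K * E)) := by
          have e1 : 0 ≤ K * (δ * h) ^ 2 := by positivity
          have e2 : 0 ≤ h * (K * E) := by positivity
          apply Real.sqrt_le_iff.mpr
          refine ⟨by positivity, ?_⟩
          have e3 := Real.sq_sqrt e1
          have e4 := Real.sq_sqrt e2
          have e5 : 0 ≤ √(K * (δ * h) ^ 2) * √(h * (K * E)) := by positivity
          nlinarith
      _ = _ := by rw [sqrt_mul_sq' hK (by positivity)]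
  unfold cost
  linarith

/-- `∑ 2^(-s) 2^(s/4) ≤ 3` -/
theorem geo_quarter (n : ℕ) : ∑ s ∈ range n, (1 / 2 : ℝ) ^ s * ((2:ℝ) ^ ((1:ℝ) / 4)) ^ s ≤ 3 := by
  have hr : (2:ℝ) ^ ((1:ℝ) / 4) ≤ 4 / 3 := by
    have h1 : (2:ℝ) ≤ (4 / 3) ^ (4:ℝ) := by norm_num
    calc (2:ℝ) ^ ((1:ℝ) / 4) ≤ ((4 / 3) ^ (4:ℝ)) ^ ((1:ℝ) / 4) := by gcongr
      _ = 4 / 3 := by
          rw [← Real.rpow_mul (by norm_num)]; norm_num
  set r : ℝ := (2:ℝ) ^ ((1:ℝ) / 4) with hr'
  have hr0 : 0 ≤ r := by positivity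
  have key : ∀ n : ℕ, ∑ s ∈ range n, (1 / 2 : ℝ) ^ s * r ^ s ≤ 3 - 3 * (r / 2) ^ n := by
    intro n
    induction n with
    | zero => simp
    | succ n ih =>
      rw [sum_range_succ, pow_succ]
      have h1 : (1 / 2 : ℝ) ^ n * r ^ n = (r / 2) ^ n := by
        rw [← mul_pow]; congr 1; ring
      have h2 : 0 ≤ (r / 2) ^ n := by positivity
      rw [h1]
      nlinarith
  have := key n
  have h2 : 0 ≤ (r / 2) ^ n := by positivity
  linarith

theorem geo_one (n : ℕ) : ∑ s ∈ range n, (1 / 2 : ℝ) ^ s ≤ 2 := by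
  have := geo_two n
  rw [← mul_sum] at this
  linarith

theorem lD_nat_tendsto : Tendsto (fun D : ℝ => T.ll D) atTop atTop :=
  tendsto_natCast_atTop_iff.mp lD_tendsto

/-- the number of stages is at most `l` -/
theorem ev_sm_le {A : ℝ} (C1 : ℝ) (hA : 1 ≤ A) (hC : 0 ≤ C1) :
    ∀ᶠ D : ℝ in atTop, (T.sm A C1 D : ℝ) + 1 ≤ T.ll D := by
  have h1 := tendsto_pow_const_mul_const_pow_of_abs_lt_one 4 (r := (1:ℝ) / 2)
    (by rw [abs_of_pos (by norm_num)]; norm_num)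
  have h2 : Tendsto (fun n : ℕ => (8 * (C1 + 1) ^ 4) * ((n:ℝ) ^ 4 * (1 / 2) ^ n)) atTop (𝓝 0) := by
    have := h1.const_mul (8 * (C1 + 1) ^ 4)
    rwa [mul_zero] at this
  have h3 := lD_nat_tendsto.eventually (h2.eventually (eventually_lt_nhds (zero_lt_one)))
  filter_upwards [h3, lD_tendsto.eventually_ge_atTop A, lD_nat_tendsto.eventually_ge_atTop 1]
    with D h3 h4 h5
  have h6 := two_pow_sm hA hC h4
  by_contra h7
  have h8 : T.ll D ≤ T.sm A C1 D := by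
    by_contra h9
    apply h7
    have : T.sm A C1 D + 1 ≤ T.ll D := by omega
    exact_mod_cast this
  have h10 : (2:ℝ) ^ T.ll D ≤ (2:ℝ) ^ T.sm A C1 D := pow_le_pow_right₀ (by norm_num) h8
  have h11 : (2:ℝ) ^ T.ll D ≤ 4 * ((C1 + 1) * T.ll D) ^ 4 := h10.trans h6
  have h12 : (8 * (C1 + 1) ^ 4) * (((T.ll D : ℕ) : ℝ) ^ 4 * (1 / 2) ^ T.ll D)
      = 2 * (4 * ((C1 + 1) * T.ll D) ^ 4) * (1 / 2) ^ T.ll D := by ring
  rw [h12] at h3
  have h13 : (2:ℝ) ^ T.ll D * (1 / 2) ^ T.ll D = 1 := by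
    rw [← mul_pow]; norm_num
  have h14 : (0:ℝ) ≤ (1 / 2) ^ T.ll D := by positivity
  nlinarith

/-- **Account of one epoch** in the letters of `T/Defs`: stages `1 ≤ s ≤ sm A C1 D`. -/
theorem acc_stage (A C1 K : ℝ) (hA : 1 ≤ A) (hC1 : 0 ≤ C1) (hK : 1 ≤ K) :
    ∃ C : ℝ, 0 ≤ C ∧ ∀ᶠ D : ℝ in atTop, ∀ (I m : ℝ) (δ h b : ℕ → ℝ), 0 ≤ I →
      I ≤ K * (1 + D / (T.ll D : ℝ) ^ 12) → 0 ≤ m → m ≤ K →
      (∀ s, 1 ≤ s → s ≤ T.sm A C1 D → 0 ≤ δ s ∧ δ s ≤ K * (1 / 2) ^ s) →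
      (∀ s, 1 ≤ s → s ≤ T.sm A C1 D → 0 ≤ h s ∧ h s ≤ K * (T.th A D s + 1)) →
      (∀ s, 1 ≤ s → s ≤ T.sm A C1 D → b s ≤ K * (δ s ^ 2 * h s + D / (T.ll D : ℝ) ^ 8)) →
      ∑ s ∈ Icc 1 (T.sm A C1 D), cost (δ s) (h s) m I (b s) ≤ C * (D / T.ll D) := by
  set K1 : ℝ := K * (2 * (C1 + 1) + 1) with hK1
  set K2 : ℝ := √(2 * (1 + 3 * K + K1) * (1 + 3 * K + √(2 * K * K1))) + √(K1 * K) with hK2
  refine ⟨(1 + √K) * (K * K * (3 * A + 2)) + 1, by positivity, ?_⟩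
  have hl := ev_l_log_pow 6 0 1 (1 / 2) (by norm_num)
  have hl1 := ev_l_log_pow 1 0 1 (1 / 2) (by norm_num)
  filter_upwards [eventually_ge_atTop (1:ℝ), lD_tendsto.eventually_ge_atTop A,
    lD_tendsto.eventually_ge_atTop K2, hl, hl1, ev_sm_le C1 hA hC1]
    with D hD hlA hl3 hl6 hlD hsm I m δ h b I0 I1 m0 m1 hδ hh hb
  set l : ℝ := (T.ll D : ℝ) with hldef
  have hD0 : 0 < D := by linarith
  have hl1 : 1 ≤ l := by linarith
  have hl0 : 0 < l := by linarith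
  have hA0 : 0 < A := by linarith
  have hlD6 : l ^ 6 ≤ √D := by rw [Real.sqrt_eq_rpow]; simpa using hl6
  have hlDs : l ≤ √D := by rw [Real.sqrt_eq_rpow]; simpa using hlD
  have h1l : 1 ≤ D / l := by
    rw [le_div_iff₀ hl0, one_mul]
    calc l ≤ √D := hlDs
      _ ≤ √D * √D := le_mul_of_one_le_left (Real.sqrt_nonneg D) (Real.one_le_sqrt.mpr hD)
      _ = D := Real.mul_self_sqrt hD0.le
  have hsub : ∀ s ∈ Icc 1 (T.sm A C1 D), 1 ≤ s ∧ s ≤ T.sm A C1 D := fun s hs => mem_Icc.mp hs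
  -- the first terms
  have first : ∑ s ∈ Icc 1 (T.sm A C1 D), δ s * h s ≤ K * K * (3 * A + 2) * (D / l) := by
    have g : ∀ s ∈ Icc 1 (T.sm A C1 D), δ s * h s ≤
        K * K * ((A * (D / l)) * ((1 / 2 : ℝ) ^ s * ((2:ℝ) ^ ((1:ℝ) / 4)) ^ s)
          + (1 / 2 : ℝ) ^ s) := by
      intro s hs
      obtain ⟨s1, s2⟩ := hsub s hs
      obtain ⟨d0, d1⟩ := hδ s s1 s2
      obtain ⟨p0, p1⟩ := hh s s1 s2
      calc δ s * h s ≤ (K * (1 / 2) ^ s) * (K * (T.th A D s + 1)) := by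
            gcongr
        _ = _ := by rw [th_eq']; ring
    calc _ ≤ ∑ s ∈ Icc 1 (T.sm A C1 D),
          K * K * ((A * (D / l)) * ((1 / 2 : ℝ) ^ s * ((2:ℝ) ^ ((1:ℝ) / 4)) ^ s)
          + (1 / 2 : ℝ) ^ s) := sum_le_sum g
      _ ≤ ∑ s ∈ range (T.sm A C1 D + 1),
          K * K * ((A * (D / l)) * ((1 / 2 : ℝ) ^ s * ((2:ℝ) ^ ((1:ℝ) / 4)) ^ s)
          + (1 / 2 : ℝ) ^ s) := by
          apply sum_le_sum_of_subset_of_nonneg
          · intro s hs
            have := hsub s hs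
            simp only [mem_range]; omega
          · intro s _ _
            positivity
      _ = K * K * ((A * (D / l)) * ∑ s ∈ range (T.sm A C1 D + 1),
            ((1 / 2 : ℝ) ^ s * ((2:ℝ) ^ ((1:ℝ) / 4)) ^ s)
          + ∑ s ∈ range (T.sm A C1 D + 1), (1 / 2 : ℝ) ^ s) := by
          rw [← mul_sum, sum_add_distrib, ← mul_sum]
      _ ≤ K * K * ((A * (D / l)) * 3 + 2) := by
          have e1 := geo_quarter (T.sm A C1 D + 1)
          have e2 := geo_one (T.sm A C1 D + 1)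
          gcongr
      _ ≤ K * K * ((A * (D / l)) * 3 + 2 * (D / l)) := by gcongr; linarith
      _ = _ := by ring
  -- the other terms
  have rest : ∀ s ∈ Icc 1 (T.sm A C1 D), cost (δ s) (h s) m I (b s) - (1 + √K) * (δ s * h s)
      ≤ K2 * (D / l ^ 3) := by
    intro s hs
    obtain ⟨s1, s2⟩ := hsub s hs
    obtain ⟨p0, p1⟩ := hh s s1 s2
    obtain ⟨d0, d1⟩ := hδ s s1 s2
    have hk : h s ≤ K1 * D := by
      calc h s ≤ K * (T.th A D s + 1) := p1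
        _ ≤ K * (2 * (C1 + 1) * D + 1 * D) := by
          have := th_le hA0 hC1 hD0.le hlA s2
          gcongr
          linarith
        _ = K1 * D := by rw [hK1]; ring
    have e1 := cost_split (I := I) (m := m) d0 p0 (by linarith : 0 ≤ K) (by positivity)
      (hb s s1 s2)
    have e2 := cost_rest (D := D) (l := l) (b := K * (D / l ^ 8)) (by linarith) hl1 hlD6 hK
      (by positivity : 0 ≤ K1) p0 hk m0 m1 I0 I1 le_rfl
    unfold cost at e1 ⊢
    linarith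
  have total : ∑ s ∈ Icc 1 (T.sm A C1 D), cost (δ s) (h s) m I (b s)
      ≤ (1 + √K) * (K * K * (3 * A + 2) * (D / l)) + (T.sm A C1 D : ℝ) * (K2 * (D / l ^ 3)) := by
    have e : ∑ s ∈ Icc 1 (T.sm A C1 D), cost (δ s) (h s) m I (b s)
        = (1 + √K) * ∑ s ∈ Icc 1 (T.sm A C1 D), δ s * h s
          + ∑ s ∈ Icc 1 (T.sm A C1 D),
            (cost (δ s) (h s) m I (b s) - (1 + √K) * (δ s * h s)) := by
      rw [mul_sum, ← sum_add_distrib]; refine sum_congr rfl fun j _ => ?_; ring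
    rw [e]
    have e2 := sum_le_card_nsmul (Icc 1 (T.sm A C1 D)) _ _ rest
    rw [Nat.card_Icc, nsmul_eq_mul, Nat.add_sub_cancel] at e2
    gcongr
  have hq : (T.sm A C1 D : ℝ) * (K2 * (D / l ^ 3)) ≤ D / l := by
    have hK20 : 0 ≤ K2 := by positivity
    calc (T.sm A C1 D : ℝ) * (K2 * (D / l ^ 3)) ≤ l * (l * (D / l ^ 3)) := by
          have : (T.sm A C1 D : ℝ) ≤ l := by linarith
          gcongr
      _ = D / l := by field_simp
  calc _ ≤ _ := total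
    _ ≤ (1 + √K) * (K * K * (3 * A + 2) * (D / l)) + D / l := by linarith
    _ = _ := by ring

/-! ## smallness lemmas for the hypotheses of `acc_stage` -/

/-- powers of `l` against `D` -/
theorem ev_poly (B B' : ℕ) (C : ℝ) : ∀ᶠ D : ℝ in atTop,
    C * (T.ll D : ℝ) ^ B ≤ D / (T.ll D : ℝ) ^ B' := by
  filter_upwards [ev_l_log_pow (B + B') 0 C 1 one_pos, lD_tendsto.eventually_ge_atTop 1]
    with D h1 h2
  have h0 : 0 < (T.ll D : ℝ) := by linarith
  rw [Real.rpow_one, pow_zero, mul_one, pow_add, ← mul_assoc] at h1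
  rwa [le_div_iff₀ (by positivity)]

/-- powers of `l` and logarithms against `D` -/
theorem ev_poly_log (B B' B'' : ℕ) (C : ℝ) : ∀ᶠ D : ℝ in atTop,
    C * ((T.ll D : ℝ) ^ B * Real.log D ^ B'') ≤ D / (T.ll D : ℝ) ^ B' := by
  filter_upwards [ev_l_log_pow (B + B') B'' C 1 one_pos, lD_tendsto.eventually_ge_atTop 1]
    with D h1 h2
  have h0 : 0 < (T.ll D : ℝ) := by linarith
  rw [Real.rpow_one, pow_add] at h1
  rw [le_div_iff₀ (by positivity)]
  calc _ = C * ((T.ll D : ℝ) ^ B * (T.ll D : ℝ) ^ B' * Real.log D ^ B'') := by ring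
    _ ≤ _ := h1

/-- the total value information is tiny -/
theorem ev_qm_ep (B : ℕ) (C c : ℝ) (hc : 0 < c) :
    ∀ᶠ D : ℝ in atTop, C * (qm D * ep c D) ≤ ((T.ll D : ℝ) ^ B)⁻¹ := by
  filter_upwards [ev_ep (B + 4) |C| c hc, lD_tendsto.eventually_ge_atTop 1,
    Real.tendsto_log_atTop.eventually_ge_atTop 0] with D h1 h2 h3
  have h0 : 0 < (T.ll D : ℝ) := by linarith
  have he : 0 ≤ ep c D := by unfold ep; positivity
  have hq : (qm D : ℝ) = (T.ll D : ℝ) ^ 4 := by unfold qm; push_cast; ring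
  calc C * (qm D * ep c D) ≤ |C| * (qm D * ep c D) := by
        have : 0 ≤ (qm D : ℝ) * ep c D := by positivity
        gcongr; exact le_abs_self C
    _ = (T.ll D : ℝ) ^ 4 * (|C| * ep c D) := by rw [hq]; ring
    _ ≤ (T.ll D : ℝ) ^ 4 * ((T.ll D : ℝ) ^ (B + 4))⁻¹ := by gcongr
    _ = ((T.ll D : ℝ) ^ B)⁻¹ := by rw [pow_add]; field_simp

/-- the value information in the form of `acc_stage` -/
theorem ev_I (K c : ℝ) (hK : 0 ≤ K) (hc : 0 < c) : ∀ᶠ D : ℝ in atTop, ∀ I : ℝ,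
    I ≤ K * (1 + qm D * (ep c D * D)) → I ≤ K * (1 + D / (T.ll D : ℝ) ^ 12) := by
  filter_upwards [ev_qm_ep 12 1 c hc, eventually_ge_atTop (0:ℝ)] with D h1 h2 I hI
  refine hI.trans ?_
  gcongr
  calc (qm D : ℝ) * (ep c D * D) = (1 * (qm D * ep c D)) * D := by ring
    _ ≤ ((T.ll D : ℝ) ^ 12)⁻¹ * D := by gcongr
    _ = D / (T.ll D : ℝ) ^ 12 := by rw [div_eq_inv_mul]

/-- the exceptional mass of a stage is below the mass allowed in `P_T8` -/
theorem ev_mass (A C1 C : ℝ) (hA : 1 ≤ A) (hC1 : 0 ≤ C1) (k : ℕ) : ∀ᶠ D : ℝ in atTop, ∀ s : ℕ,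
    s ≤ T.sm A C1 D → C * ((2:ℝ) ^ s) ^ k * Real.exp (-(T.th A D s / 2))
      ≤ Real.exp (-(D / (T.ll D : ℝ) ^ 2)) := by
  have h1 := ev_l_exp 0 1 (|C| * (4 * (C1 + 1) ^ 4) ^ k) (1 / 8) (by norm_num)
  have h2 := ev_l_log_pow (4 * k + 1) 0 1 1 one_pos
  have h3 := ev_l_exp 1 1 1 (1 / 8) (by norm_num)
  filter_upwards [h1, h2, h3, lD_tendsto.eventually_ge_atTop A,
    lD_tendsto.eventually_ge_atTop 4, eventually_ge_atTop (1:ℝ)] with D h1 h2 h3 hlA hl4 hD s hs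
  set l : ℝ := (T.ll D : ℝ) with hldef
  have hl0 : 0 < l := by linarith
  have hD0 : 0 < D := by linarith
  have e1 : (2:ℝ) ^ s ≤ 4 * ((C1 + 1) * l) ^ 4 :=
    (pow_le_pow_right₀ (by norm_num) hs).trans (two_pow_sm hA hC1 hlA)
  have e2 : D / l ≤ T.th A D s := by
    rw [th_eq']
    have hr : 1 ≤ ((2:ℝ) ^ ((1:ℝ) / 4)) ^ s :=
      one_le_pow₀ (Real.one_le_rpow (by norm_num) (by norm_num))
    calc D / l = 1 / l * D * 1 := by ring
      _ ≤ A / l * D * ((2:ℝ) ^ ((1:ℝ) / 4)) ^ s := by gcongr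
  have e3 : Real.exp (-(T.th A D s / 2)) ≤ Real.exp (-(D / l / 4)) * Real.exp (-(1/8 * (D / l ^ 1)))
      * Real.exp (-(1/8 * (D / l ^ 1))) := by
    rw [← Real.exp_add, ← Real.exp_add]
    apply Real.exp_le_exp.mpr
    rw [pow_one]
    linarith
  have e4 : D / l ^ 2 ≤ D / l / 4 := by
    rw [div_div]
    apply div_le_div_of_nonneg_left hD0.le (by positivity)
    nlinarith
  have e5 : l ^ (4 * k) ≤ D := by
    rw [Real.rpow_one, pow_zero, mul_one, one_mul, pow_succ] at h2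
    calc l ^ (4 * k) ≤ l ^ (4 * k) * l := le_mul_of_one_le_right (by positivity) (by linarith)
      _ ≤ D := h2
  rw [pow_zero, one_mul] at h1
  rw [one_mul, pow_one] at h3
  have hx : 0 ≤ Real.exp (-(1/8 * (D / l ^ 1))) := by positivity
  calc C * ((2:ℝ) ^ s) ^ k * Real.exp (-(T.th A D s / 2))
      ≤ |C| * (4 * ((C1 + 1) * l) ^ 4) ^ k * (Real.exp (-(D / l / 4))
          * Real.exp (-(1/8 * (D / l ^ 1))) * Real.exp (-(1/8 * (D / l ^ 1)))) := by
        gcongr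
        exact le_abs_self C
    _ = Real.exp (-(D / l / 4)) * (|C| * (4 * (C1 + 1) ^ 4) ^ k
          * Real.exp (-(1/8 * (D / l ^ 1)))) * (l ^ (4 * k) * Real.exp (-(1/8 * (D / l ^ 1)))) := by
        rw [mul_pow (C1 + 1) l, ← mul_assoc 4, mul_pow (4 * (C1 + 1) ^ 4), ← pow_mul l]
        ring
    _ ≤ Real.exp (-(D / l / 4)) * 1 * 1 := by
        gcongr
        calc l ^ (4 * k) * Real.exp (-(1/8 * (D / l ^ 1)))
            ≤ D * Real.exp (-(1/8 * (D / l ^ 1))) := by gcongr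
          _ ≤ 1 := h3
    _ ≤ Real.exp (-(D / l ^ 2)) := by
        rw [mul_one, mul_one]
        apply Real.exp_le_exp.mpr
        linarith

end Vale.Agent.P091.T.H284
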