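import Vale.Agent.P091.T.H284.Stage

/-!
# P091, row E1-F: one stage for the departure form of Lemma E and for `inst`
-/

namespace Vale.Agent.P091.T.H284

open Real Finset Filter Topology

/-- all terms of `lemmaE_dep` besides `δ h` -/
theorem dep_rest {D l C h m I b K1 : ℝ} (hD : 1 ≤ D) (hl : 1 ≤ l) (hlD : l ^ 12 ≤ √D)
    (hC : 1 ≤ C) (hK : 0 ≤ K1) (h0 : 0 ≤ h) (h1 : h ≤ K1 * D) (m0 : 0 ≤ m) (m1 : m ≤ C)
    (I0 : 0 ≤ I) (I1 : I ≤ C * (1 + D / l ^ 24)) (b0 : 0 ≤ b) (b1 : b ≤ C * (D / l ^ 12)) :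
    √((1 + m + h + I) * (1 + m + I + √(I * h)))
      + √h * √(1 + m + √(h * b) + √((1 + m + h + I) * (1 + m + I + √(I * h)))
            + (1 + m + I + √(I * h))) + I + m + 1
      ≤ (√((1 + 3 * C + K1) * (1 + 3 * C + √(2 * C * K1)))
        + √(K1 * (1 + C + √(K1 * C) + √((1 + 3 * C + K1) * (1 + 3 * C + √(2 * C * K1)))
          + (1 + 3 * C + √(2 * C * K1)))) + (1 + 3 * C + √(2 * C * K1))) * (D / l ^ 3) := by
  have hD0 : 0 < D := by linarith
  have hl0 : 0 < l := by linarith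
  have hsq : 1 ≤ √D := Real.one_le_sqrt.mpr hD
  have hsq2 : √D * √D = D := Real.mul_self_sqrt hD0.le
  have e12 : √D ≤ D / l ^ 12 := by
    rw [le_div_iff₀ (by positivity)]
    calc √D * l ^ 12 ≤ √D * √D := by gcongr
      _ = D := hsq2
  have e24 : D / l ^ 24 ≤ D / l ^ 12 := div_pow_le hD0.le hl (by norm_num)
  have e24' : D / l ^ 24 ≤ D := div_le_self hD0.le (one_le_pow₀ hl)
  have hIl : I ≤ C * (2 * D) := I1.trans (by gcongr; linarith)
  have f1 : 1 + m + h + I ≤ (1 + 3 * C + K1) * D := by nlinarith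
  have d12 : 1 ≤ D / l ^ 12 := hsq.trans e12
  have hIh : I * h ≤ (2 * C * K1) * (D / l ^ 12) ^ 2 := by
    have g2 : I * h ≤ C * (1 + D / l ^ 24) * (K1 * D) := by gcongr
    have g3 : D ≤ (D / l ^ 12) ^ 2 := by
      calc D = √D * √D := hsq2.symm
        _ ≤ (D / l ^ 12) * (D / l ^ 12) := by gcongr
        _ = (D / l ^ 12) ^ 2 := by ring
    have g4 : D / l ^ 24 * D = (D / l ^ 12) ^ 2 := by
      rw [div_pow, ← pow_mul]; ring
    calc I * h ≤ C * (1 + D / l ^ 24) * (K1 * D) := g2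
      _ = C * K1 * (D + D / l ^ 24 * D) := by ring
      _ ≤ C * K1 * ((D / l ^ 12) ^ 2 + (D / l ^ 12) ^ 2) := by rw [g4]; gcongr
      _ = (2 * C * K1) * (D / l ^ 12) ^ 2 := by ring
  have hs : √(I * h) ≤ √(2 * C * K1) * (D / l ^ 12) := by
    rw [← sqrt_mul_sq' (by positivity) (by positivity)]
    exact Real.sqrt_le_sqrt hIh
  set Y : ℝ := 1 + m + I + √(I * h) with hY
  set q : ℝ := 1 + 3 * C + √(2 * C * K1) with hq
  have hq0 : 0 ≤ q := by positivity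
  have f2 : Y ≤ q * (D / l ^ 12) := by
    have g1 : I ≤ C * (D / l ^ 12 + D / l ^ 12) := I1.trans (by gcongr)
    rw [hY, hq]
    nlinarith
  have hY0 : 0 ≤ Y := by positivity
  have hn2 : 0 ≤ (1 + 3 * C + K1) * D := by positivity
  have f3 : (1 + m + h + I) * Y ≤ ((1 + 3 * C + K1) * q) * (D / l ^ 6) ^ 2 := by
    calc (1 + m + h + I) * Y
        ≤ ((1 + 3 * C + K1) * D) * (q * (D / l ^ 12)) := mul_le_mul f1 f2 hY0 hn2
      _ = ((1 + 3 * C + K1) * q) * (D / l ^ 6) ^ 2 := by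
          rw [div_pow, ← pow_mul]; ring
  have t1 : √((1 + m + h + I) * Y) ≤ √((1 + 3 * C + K1) * q) * (D / l ^ 6) := by
    rw [← sqrt_mul_sq' (by positivity) (by positivity)]
    exact Real.sqrt_le_sqrt f3
  have t2 : √(h * b) ≤ √(K1 * C) * (D / l ^ 6) := by
    rw [← sqrt_mul_sq' (by positivity) (by positivity)]
    apply Real.sqrt_le_sqrt
    calc h * b ≤ (K1 * D) * (C * (D / l ^ 12)) := mul_le_mul h1 b1 b0 (by positivity)
      _ = (K1 * C) * (D / l ^ 6) ^ 2 := by rw [div_pow, ← pow_mul]; ring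
  have d6 : D / l ^ 12 ≤ D / l ^ 6 := div_pow_le hD0.le hl (by norm_num)
  have d63 : D / l ^ 6 ≤ D / l ^ 3 := div_pow_le hD0.le hl (by norm_num)
  have d61 : 1 ≤ D / l ^ 6 := d12.trans d6
  have f2' : Y ≤ q * (D / l ^ 6) := f2.trans (by gcongr)
  set X : ℝ := √((1 + m + h + I) * Y) with hX
  set R : ℝ := √((1 + 3 * C + K1) * q) with hR
  set P : ℝ := √(K1 * C) with hP
  have f4 : 1 + m + √(h * b) + X + Y ≤ (1 + C + P + R + q) * (D / l ^ 6) := by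
    have g1 : 1 + m ≤ (1 + C) * (D / l ^ 6) := by nlinarith
    nlinarith
  have t3 : √h * √(1 + m + √(h * b) + X + Y) ≤ √(K1 * (1 + C + P + R + q)) * (D / l ^ 3) := by
    rw [← Real.sqrt_mul h0, ← sqrt_mul_sq' (by positivity) (by positivity)]
    apply Real.sqrt_le_sqrt
    calc h * (1 + m + √(h * b) + X + Y) ≤ (K1 * D) * ((1 + C + P + R + q) * (D / l ^ 6)) :=
          mul_le_mul h1 f4 (by positivity) (by positivity)
      _ = (K1 * (1 + C + P + R + q)) * (D / l ^ 3) ^ 2 := by rw [div_pow, ← pow_mul]; ring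
  have t4 : I + m + 1 ≤ q * (D / l ^ 3) := by
    have g0 : 0 ≤ √(I * h) := Real.sqrt_nonneg _
    calc I + m + 1 ≤ Y := by rw [hY]; linarith
      _ ≤ q * (D / l ^ 6) := f2'
      _ ≤ q * (D / l ^ 3) := by gcongr
  have t1' : X ≤ R * (D / l ^ 3) := t1.trans (by gcongr)
  calc X + √h * √(1 + m + √(h * b) + X + Y) + I + m + 1
      ≤ R * (D / l ^ 3) + √(K1 * (1 + C + P + R + q)) * (D / l ^ 3) + q * (D / l ^ 3) := by
        linarith
    _ = _ := by ring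

/-- **One stage, departure form**: the right side of `lemmaE_dep` is at most
`C (2^(-s) th_s + D / l^3)`. -/
theorem one_stage_dep (A C1 K : ℝ) (hA : 1 ≤ A) (hC1 : 0 ≤ C1) (hK : 1 ≤ K) :
    ∃ C : ℝ, 0 ≤ C ∧ ∀ᶠ D : ℝ in atTop, ∀ s : ℕ, s ≤ T.sm A C1 D → ∀ I m δ h b : ℝ,
      0 ≤ I → I ≤ K * (1 + D / (T.ll D : ℝ) ^ 24) → 0 ≤ m → m ≤ K →
      0 ≤ δ → δ ≤ K * (1 / 2) ^ s → 0 ≤ h → h ≤ K * (T.th A D s + 1) →
      0 ≤ b → b ≤ K * (D / (T.ll D : ℝ) ^ 12) →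
      δ * h + √((1 + m + h + I) * (1 + m + I + √(I * h)))
        + √h * √(1 + m + √(h * b) + √((1 + m + h + I) * (1 + m + I + √(I * h)))
            + (1 + m + I + √(I * h))) + I + m + 1
        ≤ C * ((1 / 2) ^ s * T.th A D s + D / (T.ll D : ℝ) ^ 3) := by
  set K1 : ℝ := K * (2 * (C1 + 1) + 1) with hK1
  set K2 : ℝ := √((1 + 3 * K + K1) * (1 + 3 * K + √(2 * K * K1)))
        + √(K1 * (1 + K + √(K1 * K) + √((1 + 3 * K + K1) * (1 + 3 * K + √(2 * K * K1)))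
          + (1 + 3 * K + √(2 * K * K1)))) + (1 + 3 * K + √(2 * K * K1)) with hK2
  refine ⟨K * K + K2, by positivity, ?_⟩
  filter_upwards [eventually_ge_atTop (1:ℝ), lD_tendsto.eventually_ge_atTop A,
    ev_l_log_pow 12 0 1 (1 / 2) (by norm_num), ev_poly 0 3 1]
    with D hD hlA hl6 hD3 s s2 I m δ h b I0 I1 m0 m1 d0 d1 p0 p1 b0 b1
  set l : ℝ := (T.ll D : ℝ) with hldef
  have hD0 : 0 < D := by linarith
  have hl1 : 1 ≤ l := by linarith
  have hl0 : 0 < l := by linarith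
  have hA0 : 0 < A := by linarith
  have hlD : l ^ 12 ≤ √D := by rw [Real.sqrt_eq_rpow]; simpa using hl6
  have ht := th_nonneg' hA0.le hD0.le s
  have hk : h ≤ K1 * D := by
    calc h ≤ K * (T.th A D s + 1) := p1
      _ ≤ K * (2 * (C1 + 1) * D + 1 * D) := by
        have := th_le hA0 hC1 hD0.le hlA s2
        gcongr
        linarith
      _ = K1 * D := by rw [hK1]; ring
  have e2 := dep_rest (D := D) (l := l) (b := b) (by linarith) hl1 hlD hK
    (by positivity : 0 ≤ K1) p0 hk m0 m1 I0 I1 b0 b1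
  have e4 : δ * h ≤ K * K * ((1 / 2) ^ s * T.th A D s + D / l ^ 3) := by
    have hp : (1 / 2 : ℝ) ^ s ≤ 1 := pow_le_one₀ (by norm_num) (by norm_num)
    calc δ * h ≤ (K * (1 / 2) ^ s) * (K * (T.th A D s + 1)) := by gcongr
      _ = K * K * ((1 / 2) ^ s * T.th A D s + (1 / 2) ^ s) := by ring
      _ ≤ K * K * ((1 / 2) ^ s * T.th A D s + D / l ^ 3) := by
        have : (1:ℝ) ≤ D / l ^ 3 := by simpa using hD3
        gcongr
        linarith
  have e5 : 0 ≤ (1 / 2 : ℝ) ^ s * T.th A D s := by positivity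
  have e6 : 0 ≤ D / l ^ 3 := by positivity
  have hK20 : 0 ≤ K2 := by positivity
  have e7 : K2 * (D / l ^ 3) ≤ K2 * ((1 / 2) ^ s * T.th A D s + D / l ^ 3) := by
    gcongr
    linarith
  linarith

/-- **One stage, for `H103.inst`**: its right side (with `I` for `Iv`) -/
theorem one_stage_inst (A C1 K : ℝ) (hA : 1 ≤ A) (hC1 : 0 ≤ C1) (hK : 1 ≤ K) :
    ∃ C : ℝ, 0 ≤ C ∧ ∀ᶠ D : ℝ in atTop, ∀ s : ℕ, s ≤ T.sm A C1 D → ∀ I m er δ h N : ℝ,
      0 ≤ I → I ≤ K * (1 + D / (T.ll D : ℝ) ^ 12) → 0 ≤ m → m ≤ K → 0 ≤ er → er ≤ K →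
      0 ≤ δ → δ ≤ K * (1 / 2) ^ s → 0 ≤ h → h ≤ K * (T.th A D s + 1) →
      0 ≤ N → N ≤ K * (D / (T.ll D : ℝ) ^ 8) →
      δ * h + √((1 + m + h + I) * (1 + m + I + √(I * h))) + √(h * (1 + m + er + N)) + er + m
        ≤ C * ((1 / 2) ^ s * T.th A D s + D / (T.ll D : ℝ) ^ 3) := by
  obtain ⟨C, hC, hev⟩ := one_stage A C1 (4 * K) hA hC1 (by linarith)
  refine ⟨C + 2 * K, by positivity, ?_⟩
  filter_upwards [eventually_ge_atTop (1:ℝ), lD_tendsto.eventually_ge_atTop A,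
    hev, ev_poly 0 3 1, ev_poly 0 8 1]
    with D hD hlA hev hD3 hD8 s s2 I m er δ h N I0 I1 m0 m1 r0 r1 d0 d1 p0 p1 N0 N1
  set l : ℝ := (T.ll D : ℝ) with hldef
  have hD0 : 0 < D := by linarith
  have hl1 : 1 ≤ l := by linarith
  have hl0 : 0 < l := by linarith
  have hA0 : 0 < A := by linarith
  have ht := th_nonneg' hA0.le hD0.le s
  have g3 : (1:ℝ) ≤ D / l ^ 3 := by simpa using hD3
  have g8 : (1:ℝ) ≤ D / l ^ 8 := by simpa using hD8
  have q1 : 0 ≤ D / l ^ 12 := by positivity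
  have hb : 1 + m + er + N ≤ 4 * K * (δ ^ 2 * h + D / l ^ 8) := by
    have w1 : 1 + m + er + N ≤ 4 * K * (D / l ^ 8) := by nlinarith
    have w2 : 0 ≤ 4 * K * (δ ^ 2 * h) := by positivity
    linarith
  have hp : 0 ≤ (1 / 2 : ℝ) ^ s := by positivity
  have e := hev s s2 I m δ h (1 + m + er + N) I0 (by nlinarith) m0 (by linarith) d0
    (by nlinarith) p0 (by nlinarith) hb
  unfold cost at e
  have e5 : 0 ≤ (1 / 2 : ℝ) ^ s * T.th A D s := by positivity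
  nlinarith

/-- value information from the pinned form `4 + |J| ep D` -/
theorem ev_I24 (K c : ℝ) (hK : 0 ≤ K) (hc : 0 < c) : ∀ᶠ D : ℝ in atTop, ∀ (I : ℝ) (L : ℕ),
    L ≤ qm D → I ≤ K * (1 + L * |ep c D * D|) → I ≤ K * (1 + D / (T.ll D : ℝ) ^ 24) := by
  filter_upwards [ev_qm_ep 24 1 c hc, eventually_ge_atTop (1:ℝ)] with D h1 h2 I L hL hI
  refine hI.trans ?_
  have h0 : 0 ≤ ep c D := by
    unfold ep
    have := Real.log_nonneg h2
    positivity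
  have h3 : 0 ≤ ep c D * D := by positivity
  rw [abs_of_nonneg h3]
  gcongr
  calc (L : ℝ) * (ep c D * D) ≤ (qm D : ℝ) * (ep c D * D) := by gcongr
    _ = (1 * (qm D * ep c D)) * D := by ring
    _ ≤ ((T.ll D : ℝ) ^ 24)⁻¹ * D := by gcongr
    _ = _ := by rw [div_eq_mul_inv, mul_comm]

/-- the energy of the exceptional classes: from `D / (4 l^20)` (row T8) to `K (D / l^12)` -/
theorem ev_b12 (K : ℝ) (hK : 1 ≤ K) : ∀ᶠ D : ℝ in atTop, ∀ b c0 : ℝ, c0 ≤ K →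
    b ≤ K * (c0 + D / (T.ll D : ℝ) ^ 20) → b ≤ K * (D / (T.ll D : ℝ) ^ 12) := by
  filter_upwards [eventually_ge_atTop (1:ℝ), lD_tendsto.eventually_ge_atTop 2, ev_poly 0 12 (2 * K)]
    with D hD hl h1 b c0 hc hb
  refine hb.trans (mul_le_mul_of_nonneg_left ?_ (by linarith))
  have hD0 : 0 < D := by linarith
  have hl0 : 0 < (T.ll D : ℝ) := by linarith
  have e1 : D / (T.ll D : ℝ) ^ 20 ≤ D / (T.ll D : ℝ) ^ 12 / 2 := by
    rw [div_div]
    apply div_le_div_of_nonneg_left hD0.le (by positivity)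
    have : (T.ll D : ℝ) ^ 20 = (T.ll D : ℝ) ^ 12 * (T.ll D : ℝ) ^ 8 := by ring
    rw [this]
    have h8 : (2:ℝ) ≤ (T.ll D : ℝ) ^ 8 := by
      calc (2:ℝ) ≤ 2 ^ 8 := by norm_num
        _ ≤ _ := by gcongr
    gcongr
  have e2 : c0 ≤ D / (T.ll D : ℝ) ^ 12 / 2 := by
    simp only [pow_zero, mul_one] at h1
    linarith
  linarith

end Vale.Agent.P091.T.H284
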